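import Vale.Agent.Lib.P328.LemmaD

/-!
# P328: Lemma D in general position, the contraction of the averaging operators, and connectivity
-/

namespace P328
open Finset

theorem lvl_comp {n : ℕ} (v : Fin n → ℕ) (σ : Equiv.Perm (Fin n)) (t : ℤ)
    (φ : (Fin n → ℕ) → ℝ) :
    ∑ x ∈ lvl (v ∘ σ) t, φ x = ∑ y ∈ lvl v t, φ (y ∘ σ) := by
  refine sum_bij' (fun x _ => x ∘ σ.symm) (fun y _ => y ∘ σ) ?_ ?_ ?_ ?_ ?_
  · intro x hx
    rw [mem_lvl] at hx ⊢
    refine ⟨fun l => ?_, ?_⟩
    · have := hx.1 (σ.symm l)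
      simpa using this
    · rw [← hx.2]
      exact Equiv.sum_comp σ.symm (fun l => (x l : ℤ))
  · intro y hy
    rw [mem_lvl] at hy ⊢
    refine ⟨fun l => hy.1 _, ?_⟩
    rw [← hy.2]
    exact Equiv.sum_comp σ (fun l => (y l : ℤ))
  · intro x _
    funext l
    simp
  · intro y _
    funext l
    simp
  · intro x _
    congr 1
    funext l
    simp

theorem NN_comp {n : ℕ} (v : Fin n → ℕ) (σ : Equiv.Perm (Fin n)) (t : ℤ) :
    NN (v ∘ σ) t = NN v t := by
  rw [NN_eq_sum, NN_eq_sum, lvl_comp]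

theorem exists_perm {m : ℕ} (i j : Fin (m + 2)) (hij : i ≠ j) :
    ∃ σ : Equiv.Perm (Fin (m + 2)), σ 0 = j ∧ σ (Fin.succ 0) = i := by
  set i' := Equiv.swap 0 j i with hi'
  have h0 : i' ≠ 0 := by
    intro h
    have h' : Equiv.swap 0 j (Equiv.swap 0 j i) = Equiv.swap 0 j 0 := by
      rw [← hi', h]
    rw [Equiv.swap_apply_self, Equiv.swap_apply_left] at h'
    exact hij h'
  refine ⟨Equiv.swap 0 j * Equiv.swap (Fin.succ 0) i', ?_, ?_⟩
  · rw [Equiv.Perm.mul_apply, Equiv.swap_apply_of_ne_of_ne (Fin.succ_ne_zero 0).symm h0.symm,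
      Equiv.swap_apply_left]
  · rw [Equiv.Perm.mul_apply, Equiv.swap_apply_left, hi']
    simp

theorem lemmaD_le {n : ℕ} (v v' : Fin n → ℕ) (i j : Fin n) (hij : i ≠ j)
    (h1 : v i = v' i + 1) (h2 : v' j = v j + 1) (h3 : ∀ l, l ≠ i → l ≠ j → v l = v' l)
    (hle : v j ≤ v' i) (r : ℤ) (hr : 2 * r ≤ totalZ v) (f : (Fin n → ℕ) → ℝ)
    (hLip : ∀ x ∈ lvl v r, ∀ y ∈ lvl v' r, Adj x y → f x - f y ≤ 1)
    (hA : 0 < NN v r) (hB : 0 < NN v' r) :
    (∑ x ∈ lvl v r, f x) / NN v r - (∑ x ∈ lvl v' r, f x) / NN v' r ≤ 253 / 256 := by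
  obtain ⟨m, rfl⟩ : ∃ m, n = m + 2 := by
    have hi := i.2
    have hj := j.2
    have : (i : ℕ) ≠ j := fun h => hij (Fin.ext h)
    exact ⟨n - 2, by omega⟩
  obtain ⟨σ, hσ0, hσ1⟩ := exists_perm i j hij
  set rest : Fin m → ℕ := fun l => v (σ l.succ.succ) with hrest
  have e1 : v ∘ σ = Fin.cons (v j) (Fin.cons (v' i + 1) rest) := by
    funext l
    refine Fin.cases ?_ (fun l => Fin.cases ?_ (fun l => ?_) l) l
    · simp [hσ0]
    · simp only [Function.comp, Fin.cons_succ, Fin.cons_zero, hσ1, h1]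
    · simp [hrest]
  have e2 : v' ∘ σ = Fin.cons (v j + 1) (Fin.cons (v' i) rest) := by
    funext l
    refine Fin.cases ?_ (fun l => Fin.cases ?_ (fun l => ?_) l) l
    · simp [hσ0, h2]
    · simp only [Function.comp, Fin.cons_succ, Fin.cons_zero, hσ1]
    · simp only [Function.comp, Fin.cons_succ, hrest]
      refine (h3 _ ?_ ?_).symm
      · intro h
        rw [← hσ1] at h
        have := σ.injective h
        have h' := Fin.succ_injective _ this
        exact (Fin.succ_ne_zero l) h'
      · intro h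
        rw [← hσ0] at h
        have := σ.injective h
        exact (Fin.succ_ne_zero _) this
  have hZ : totalZ v = (v j : ℤ) + v' i + 1 + totalZ rest := by
    have e3 : totalZ v = totalZ (v ∘ σ) := by
      unfold totalZ
      exact (Equiv.sum_comp σ (fun l => (v l : ℤ))).symm
    rw [e3, e1]
    unfold totalZ
    rw [Fin.sum_univ_succ, Fin.sum_univ_succ]
    simp only [Fin.cons_zero, Fin.cons_succ]
    push_cast
    ring
  have key := lemmaD_cols rest (v j) (v' i) r hle (by omega) (fun x => f (x ∘ σ.symm))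
    (by
      intro x hx y hy hadj
      rw [← e1, mem_lvl] at hx
      rw [← e2, mem_lvl] at hy
      refine hLip _ ?_ _ ?_ ?_
      · rw [mem_lvl]
        refine ⟨fun l => ?_, ?_⟩
        · have := hx.1 (σ.symm l)
          simpa using this
        · rw [← hx.2]
          exact Equiv.sum_comp σ.symm (fun l => (x l : ℤ))
      · rw [mem_lvl]
        refine ⟨fun l => ?_, ?_⟩
        · have := hy.1 (σ.symm l)
          simpa using this
        · rw [← hy.2]
          exact Equiv.sum_comp σ.symm (fun l => (y l : ℤ))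
      · obtain ⟨a, b, hab, ha, hb, hc⟩ := hadj
        refine ⟨σ a, σ b, fun h => hab (σ.injective h), by simpa using ha, by simpa using hb, ?_⟩
        intro l hl1 hl2
        simp only [Function.comp]
        refine hc _ ?_ ?_
        · intro h
          apply hl1
          rw [← h]
          simp
        · intro h
          apply hl2
          rw [← h]
          simp)
    (by rw [← e1, NN_comp]; exact hA) (by rw [← e2, NN_comp]; exact hB)
  rw [← e1, ← e2, NN_comp, NN_comp, lvl_comp, lvl_comp] at key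
  have e4 : ∀ y : Fin (m + 2) → ℕ, (y ∘ σ) ∘ σ.symm = y := by
    intro y
    funext l
    simp
  simp only [e4] at key
  exact key

/-- Lemma D. -/
theorem lemmaD {n : ℕ} (v v' : Fin n → ℕ) (i j : Fin n) (hij : i ≠ j)
    (h1 : v i = v' i + 1) (h2 : v' j = v j + 1) (h3 : ∀ l, l ≠ i → l ≠ j → v l = v' l)
    (r : ℤ) (hr : 2 * r ≤ totalZ v) (f : (Fin n → ℕ) → ℝ)
    (hLip : ∀ x ∈ lvl v r, ∀ y ∈ lvl v' r, Adj x y → f x - f y ≤ 1)
    (hA : 0 < NN v r) (hB : 0 < NN v' r) :
    (∑ x ∈ lvl v r, f x) / NN v r - (∑ x ∈ lvl v' r, f x) / NN v' r ≤ 253 / 256 := by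
  by_cases hle : v j ≤ v' i
  · exact lemmaD_le v v' i j hij h1 h2 h3 hle r hr f hLip hA hB
  · have hadj : Adj v' v := ⟨i, j, hij, h1, h2, fun l hl1 hl2 => h3 l hl1 hl2⟩
    have hr' : 2 * r ≤ totalZ v' := by rw [hadj.totalZ_eq]; exact hr
    have key := lemmaD_le v' v j i hij.symm h2 h1 (fun l hl1 hl2 => (h3 l hl2 hl1).symm)
      (by omega) r hr' (fun x => - f x)
      (fun x hx y hy hxy => by
        have := hLip y hy x hx hxy.symm
        linarith) hB hA
    simp only [sum_neg_distrib, neg_div] at key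
    linarith

/-- Pointwise subtraction. -/
def subv {n : ℕ} (c x : Fin n → ℕ) : Fin n → ℕ := fun l => c l - x l

/-- Average over the level `t` of the box `c - x`. -/
noncomputable def KK {n : ℕ} (c : Fin n → ℕ) (t : ℤ) (h : (Fin n → ℕ) → ℝ) (x : Fin n → ℕ) : ℝ :=
  (∑ y ∈ lvl (subv c x) t, h y) / NN (subv c x) t

/-- One-sided Lipschitz condition along adjacent pairs (the relation is symmetric). -/
def LipOn {n : ℕ} (S : Finset (Fin n → ℕ)) (g : (Fin n → ℕ) → ℝ) (L : ℝ) : Prop :=
  ∀ x ∈ S, ∀ y ∈ S, Adj x y → g x - g y ≤ L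

theorem totalZ_subv {n : ℕ} {c x : Fin n → ℕ} {t : ℤ} (hx : x ∈ lvl c t) :
    totalZ (subv c x) = totalZ c - t := by
  rw [mem_lvl] at hx
  unfold totalZ subv
  rw [← hx.2, ← sum_sub_distrib]
  refine sum_congr rfl fun l _ => ?_
  rw [Nat.cast_sub (hx.1 l)]

theorem mem_of_mem_subv {n : ℕ} {c x y : Fin n → ℕ} {t : ℤ} (hy : y ∈ lvl (subv c x) t) :
    y ∈ lvl c t := by
  rw [mem_lvl] at hy ⊢
  refine ⟨fun l => ?_, hy.2⟩
  have := hy.1 l
  simp only [subv] at this
  omega

/-- Contraction of the averaging operator. -/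
theorem K_contract {n : ℕ} (c : Fin n → ℕ) (t₁ t₂ : ℤ) (h₀ : 0 ≤ t₂)
    (ht : 2 * t₂ ≤ totalZ c - t₁) (h : (Fin n → ℕ) → ℝ) (L : ℝ) (hL : 0 < L)
    (hh : LipOn (lvl c t₂) h L) : LipOn (lvl c t₁) (KK c t₂ h) (253 / 256 * L) := by
  intro x hx x' hx' hadj
  obtain ⟨i, j, hij, h1, h2, h3⟩ := hadj
  have hxc := (mem_lvl.mp hx).1
  have hxc' := (mem_lvl.mp hx').1
  have hZ := totalZ_subv hx
  have hZ' := totalZ_subv hx'
  have key := lemmaD (subv c x) (subv c x') i j hij
    (by
      simp only [subv]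
      have := hxc' i
      omega)
    (by
      simp only [subv]
      have := hxc j
      omega)
    (by
      intro l hl1 hl2
      simp only [subv]
      rw [h3 l hl1 hl2])
    t₂ (by rw [hZ]; exact ht) (fun y => h y / L)
    (by
      intro y hy y' hy' hadj
      have := hh y (mem_of_mem_subv hy) y' (mem_of_mem_subv hy') hadj
      rw [← sub_div, div_le_one hL]
      exact this)
    (NN_pos _ _ h₀ (by rw [hZ]; omega)) (NN_pos _ _ h₀ (by rw [hZ']; omega))
  unfold KK
  rw [← sum_div, ← sum_div] at key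
  have e : ∀ S N : ℝ, S / L / N = S / N / L := by
    intro S N
    rw [div_div, div_div, mul_comm]
  rw [e, e, ← sub_div, div_le_iff₀ hL] at key
  exact key

/-- Adjacent moves connect a level. -/
theorem osc_aux {n : ℕ} (c : Fin n → ℕ) (t : ℤ) (g : (Fin n → ℕ) → ℝ) (L : ℝ)
    (hg : LipOn (lvl c t) g L) (D : ℕ) :
    ∀ x ∈ lvl c t, ∀ x' ∈ lvl c t, ∑ l, (x l - x' l) = D → g x - g x' ≤ D * L := by
  induction D with
  | zero =>
    intro x hx x' hx' hD
    have hle : ∀ l, x l ≤ x' l := by
      intro l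
      have := (sum_eq_zero_iff.mp hD) l (mem_univ l)
      omega
    have heq : x = x' := by
      have hs : ∑ l, ((x' l : ℤ) - (x l : ℤ)) = 0 := by
        rw [sum_sub_distrib, (mem_lvl.mp hx).2, (mem_lvl.mp hx').2]
        ring
      have := (sum_eq_zero_iff_of_nonneg (fun l _ => by
        have := hle l
        omega)).mp hs
      funext l
      have := this l (mem_univ l)
      omega
    rw [heq]
    simp
  | succ D ih =>
    intro x hx x' hx' hD
    obtain ⟨j, hj⟩ : ∃ j, x' j < x j := by
      by_contra hne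
      push Not at hne
      have : ∑ l, (x l - x' l) = 0 := sum_eq_zero fun l _ => by
        have := hne l
        omega
      omega
    obtain ⟨i, hi⟩ : ∃ i, x i < x' i := by
      by_contra hne
      push Not at hne
      have hs : ∑ l, ((x l : ℤ) - (x' l : ℤ)) = 0 := by
        rw [sum_sub_distrib, (mem_lvl.mp hx).2, (mem_lvl.mp hx').2]
        ring
      have := (sum_eq_zero_iff_of_nonneg (fun l _ => by
        have := hne l
        omega)).mp hs
      have := this j (mem_univ j)
      omega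
    have hij : i ≠ j := by
      rintro rfl
      omega
    set y : Fin n → ℕ := fun l => if l = i then x l + 1 else if l = j then x l - 1 else x l with hy
    have yi : y i = x i + 1 := by simp [hy]
    have yj : y j = x j - 1 := by simp [hy, hij.symm]
    have yl : ∀ l, l ≠ i → l ≠ j → y l = x l := by
      intro l h1 h2
      simp [hy, h1, h2]
    have hadj : Adj x y := ⟨i, j, hij, yi, by omega, yl⟩
    have hyl : y ∈ lvl c t := by
      rw [mem_lvl]
      refine ⟨fun l => ?_, ?_⟩
      · by_cases h1 : l = i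
        · subst h1
          rw [yi]
          have := (mem_lvl.mp hx').1 l
          omega
        · by_cases h2 : l = j
          · subst h2
            rw [yj]
            have := (mem_lvl.mp hx).1 l
            omega
          · rw [yl l h1 h2]
            exact (mem_lvl.mp hx).1 l
      · have := hadj.totalZ_eq
        unfold totalZ at this
        rw [← this]
        exact (mem_lvl.mp hx).2
    have hD' : ∑ l, (y l - x' l) = D := by
      have e : ∀ l, (y l - x' l) + (if l = j then 1 else 0) = x l - x' l := by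
        intro l
        by_cases h1 : l = i
        · subst h1
          rw [yi, if_neg hij]
          omega
        · by_cases h2 : l = j
          · subst h2
            rw [yj, if_pos rfl]
            omega
          · rw [yl l h1 h2, if_neg h2]
            omega
      have e2 : ∑ l, ((y l - x' l) + (if l = j then 1 else 0)) = ∑ l, (x l - x' l) :=
        sum_congr rfl fun l _ => e l
      rw [sum_add_distrib, hD] at e2
      simp at e2
      omega
    have h1 := hg x hx y hyl hadj
    have h2 := ih y hyl x' hx' hD'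
    push_cast
    linarith

theorem osc_le {n : ℕ} (c : Fin n → ℕ) (t : ℤ) (g : (Fin n → ℕ) → ℝ) (L : ℝ) (hL : 0 ≤ L)
    (hg : LipOn (lvl c t) g L) (x x' : Fin n → ℕ) (hx : x ∈ lvl c t) (hx' : x' ∈ lvl c t) :
    g x - g x' ≤ ((∑ l, c l : ℕ) : ℝ) * L := by
  have h := osc_aux c t g L hg _ x hx x' hx' rfl
  refine h.trans (mul_le_mul_of_nonneg_right ?_ hL)
  have : ∑ l, (x l - x' l) ≤ ∑ l, c l := sum_le_sum fun l _ => by
    have := (mem_lvl.mp hx).1 l
    omega
  exact_mod_cast this

end P328
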