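import Vale.Agent.Lib.P328.Levels

/-!
# P328: the two-dimensional core of the contraction

Sequential monotone coupling of the pair of coordinates `(a, b)` under the two rectangles
`[0,p) × [0,q]` and `[0,p] × [0,q)`, with weights `G (a + b)`.
-/

namespace P328
open Finset

/-- Two-point log-concavity on `ℕ`. -/
def PFn (G : ℕ → ℝ) : Prop :=
  ∀ a b c d : ℕ, a ≤ b → a ≤ c → b + c = a + d → G a * G d ≤ G b * G c

/-- Expected displacement of the truncation coupling. -/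
noncomputable def uu (g : ℕ → ℝ) (q : ℕ) : ℝ :=
  ∑ b ∈ range q, cc (nmP g q) (nmP g (q + 1)) b

theorem sum_nmP_mul (X W : ℕ → ℝ) (n : ℕ) :
    ∑ a ∈ range n, nmP X n a * W a = (∑ a ∈ range n, X a * W a) / ∑ a ∈ range n, X a := by
  unfold nmP
  rw [sum_div]
  refine sum_congr rfl fun a _ => ?_
  ring

theorem sum_nmP_mul' (X W : ℕ → ℝ) (n m : ℕ) :
    ∑ a ∈ range n, nmP X m a * W a = (∑ a ∈ range n, X a * W a) / ∑ a ∈ range m, X a := by
  unfold nmP
  rw [sum_div]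
  refine sum_congr rfl fun a _ => ?_
  ring

theorem trunc_valid0 (g : ℕ → ℝ) (q : ℕ) (hg0 : ∀ b, 0 ≤ g b) (hS : 0 < ∑ b ∈ range q, g b)
    (hS' : 0 < ∑ b ∈ range (q + 1), g b) (k : ℕ) (hk : k < q) :
    0 ≤ cc (nmP g q) (nmP g (q + 1)) k :=
  cc_nonneg_of g g q hg0 hg0 hS hS' (fun a b _ _ => by rw [mul_comm]) k hk

theorem trunc_valid1 (g : ℕ → ℝ) (q : ℕ) (hg0 : ∀ b, 0 ≤ g b) (hS : 0 < ∑ b ∈ range q, g b)
    (hS' : 0 < ∑ b ∈ range (q + 1), g b)
    (hPF : ∀ a b, a ≤ b → b < q → g a * g (b + 1) ≤ g (a + 1) * g b) (k : ℕ) (hk : k < q) :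
    cc (nmP g q) (nmP g (q + 1)) k ≤ nmP g q k :=
  cc_le_of g g q hg0 hg0 hS hS' hPF k hk

theorem inner_trunc (g W : ℕ → ℝ) (q : ℕ) (hg0 : ∀ b, 0 ≤ g b) (hS : 0 < ∑ b ∈ range q, g b)
    (hPF : ∀ a b, a ≤ b → b < q → g a * g (b + 1) ≤ g (a + 1) * g b)
    (hW : ∀ b < q, 0 < g b → 0 < g (b + 1) → W (b + 1) - W b ≤ 1) :
    (∑ b ∈ range (q + 1), g b * W b) / (∑ b ∈ range (q + 1), g b)
      - (∑ b ∈ range q, g b * W b) / (∑ b ∈ range q, g b) ≤ uu g q := by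
  have hS' : 0 < ∑ b ∈ range (q + 1), g b := by
    rw [sum_range_succ]
    have := hg0 q
    linarith
  have h := transport_le (nmP g q) (nmP g (q + 1)) (fun b => - W b) (fun b => - W b) (fun _ => 0) q
    (sum_nmP g q hS) (sum_nmP g (q + 1) hS') (trunc_valid0 g q hg0 hS hS')
    (trunc_valid1 g q hg0 hS hS' hPF) (fun k _ _ _ => by simp)
    (fun k hk h1 h2 => by
      have h1' := (nmP_pos_iff g q hS k).mp h1
      have h2' := (nmP_pos_iff g (q + 1) hS' (k + 1)).mp h2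
      have := hW k hk h1' h2'
      linarith)
  have e1 : ∑ a ∈ range q, nmP g q a * (- W a) = - ((∑ b ∈ range q, g b * W b) / ∑ b ∈ range q, g b) := by
    rw [sum_nmP_mul, ← neg_div]
    congr 1
    rw [← sum_neg_distrib]
    refine sum_congr rfl fun a _ => ?_
    ring
  have e2 : ∑ a ∈ range (q + 1), nmP g (q + 1) a * (- W a) =
      - ((∑ b ∈ range (q + 1), g b * W b) / ∑ b ∈ range (q + 1), g b) := by
    rw [sum_nmP_mul, ← neg_div]
    congr 1
    rw [← sum_neg_distrib]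
    refine sum_congr rfl fun a _ => ?_
    ring
  rw [e1, e2] at h
  have e3 : ∑ k ∈ range q, ((nmP g q k - cc (nmP g q) (nmP g (q + 1)) k) * 0
      + cc (nmP g q) (nmP g (q + 1)) k) = uu g q := by
    unfold uu
    refine sum_congr rfl fun k _ => ?_
    ring
  rw [e3] at h
  linarith

theorem uu_le_one (g : ℕ → ℝ) (q : ℕ) (hg0 : ∀ b, 0 ≤ g b) (hS : 0 < ∑ b ∈ range q, g b)
    (hPF : ∀ a b, a ≤ b → b < q → g a * g (b + 1) ≤ g (a + 1) * g b) : uu g q ≤ 1 := by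
  have hS' : 0 < ∑ b ∈ range (q + 1), g b := by
    rw [sum_range_succ]
    have := hg0 q
    linarith
  unfold uu
  rw [← sum_nmP g q hS]
  refine sum_le_sum fun k hk => ?_
  exact trunc_valid1 g q hg0 hS hS' hPF k (mem_range.mp hk)

theorem two_T_le (g : ℕ → ℝ) (c : ℝ) (q : ℕ) (h0 : 0 ≤ c) (hle : ∀ b < q, c ≤ g b) :
    2 * c * ∑ k ∈ range q, ∑ a ∈ range (k + 1), g a
      ≤ (∑ a ∈ range q, g a) * (∑ a ∈ range q, g a + c) := by
  induction q with
  | zero => simp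
  | succ q ih =>
    have ih' := ih (fun b hb => hle b (by omega))
    have hγ := hle q (by omega)
    have hS : 0 ≤ ∑ a ∈ range q, g a :=
      sum_nonneg fun a ha => h0.trans (hle a (by have := mem_range.mp ha; omega))
    rw [sum_range_succ (fun k => ∑ a ∈ range (k + 1), g a), sum_range_succ g]
    set S := ∑ a ∈ range q, g a
    set T := ∑ k ∈ range q, ∑ a ∈ range (k + 1), g a
    have hmul : 0 ≤ (2 * S + g q) * (g q - c) :=
      mul_nonneg (by linarith) (by linarith)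
    nlinarith

theorem uu_le_half (g : ℕ → ℝ) (q : ℕ) (hg0 : ∀ b, 0 ≤ g b) (hS : 0 < ∑ b ∈ range q, g b)
    (hle : ∀ b < q, g q ≤ g b) : uu g q ≤ 1 / 2 := by
  set S := ∑ b ∈ range q, g b with hSd
  have hS' : ∑ b ∈ range (q + 1), g b = S + g q := by rw [sum_range_succ]
  have hpos : 0 < S + g q := by have := hg0 q; linarith
  have e : ∀ k, cc (nmP g q) (nmP g (q + 1)) k = (∑ a ∈ range (k + 1), g a) * (g q / (S * (S + g q))) := by
    intro k
    unfold cc nmP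
    rw [hS', ← hSd, sum_sub_distrib, ← sum_div, ← sum_div]
    field_simp
    ring
  unfold uu
  simp only [e]
  rw [← sum_mul]
  have key := two_T_le g (g q) q (hg0 q) hle
  rw [← hSd] at key
  rw [mul_div_assoc', div_le_iff₀ (mul_pos hS hpos)]
  nlinarith

/-- The shifted pair of laws. -/
theorem inner_shift (G F₁ F₂ : ℕ → ℝ) (k q : ℕ) (hG0 : ∀ x, 0 ≤ G x) (hPF : PFn G)
    (S₁ : 0 < ∑ b ∈ range q, G (k + 1 + b)) (S₂ : 0 < ∑ b ∈ range (q + 1), G (k + b))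
    (h1 : ∀ b < q, 0 < G (k + 1 + b) → 0 < G (k + b) → F₂ b - F₁ b ≤ 1)
    (h2 : ∀ b < q, 0 < G (k + 1 + b) → 0 < G (k + (b + 1)) → F₂ (b + 1) - F₁ b ≤ 1) :
    (∑ b ∈ range (q + 1), G (k + b) * F₂ b) / (∑ b ∈ range (q + 1), G (k + b))
      - (∑ b ∈ range q, G (k + 1 + b) * F₁ b) / (∑ b ∈ range q, G (k + 1 + b)) ≤ 1 := by
  set X : ℕ → ℝ := fun b => G (k + 1 + b) with hX
  set Y : ℕ → ℝ := fun b => G (k + b) with hY
  have h := transport_le_one (nmP X q) (nmP Y (q + 1)) (fun b => - F₁ b) (fun b => - F₂ b) q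
    (sum_nmP X q S₁) (sum_nmP Y (q + 1) S₂)
    (fun j hj => cc_nonneg_of X Y q (fun _ => hG0 _) (fun _ => hG0 _) S₁ S₂ (fun a b hab _ => by
      simp only [hX, hY]
      exact hPF (k + a) (k + 1 + a) (k + b) (k + 1 + b) (by omega) (by omega) (by omega)) j hj)
    (fun j hj => cc_le_of X Y q (fun _ => hG0 _) (fun _ => hG0 _) S₁ S₂ (fun a b _ _ => by
      simp only [hX, hY]
      have e1 : k + (b + 1) = k + 1 + b := by omega
      have e2 : k + (a + 1) = k + 1 + a := by omega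
      rw [e1, e2]) j hj)
    (fun j hj hp hq => by
      have hp' := (nmP_pos_iff X q S₁ j).mp hp
      have hq' := (nmP_pos_iff Y (q + 1) S₂ j).mp hq
      have := h1 j hj hp' hq'
      linarith)
    (fun j hj hp hq => by
      have hp' := (nmP_pos_iff X q S₁ j).mp hp
      have hq' := (nmP_pos_iff Y (q + 1) S₂ (j + 1)).mp hq
      have := h2 j hj hp' hq'
      linarith)
  have e1 : ∑ a ∈ range q, nmP X q a * (- F₁ a) =
      - ((∑ b ∈ range q, X b * F₁ b) / ∑ b ∈ range q, X b) := by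
    rw [sum_nmP_mul, ← neg_div]
    congr 1
    rw [← sum_neg_distrib]
    refine sum_congr rfl fun a _ => ?_
    ring
  have e2 : ∑ a ∈ range (q + 1), nmP Y (q + 1) a * (- F₂ a) =
      - ((∑ b ∈ range (q + 1), Y b * F₂ b) / ∑ b ∈ range (q + 1), Y b) := by
    rw [sum_nmP_mul, ← neg_div]
    congr 1
    rw [← sum_neg_distrib]
    refine sum_congr rfl fun a _ => ?_
    ring
  rw [e1, e2] at h
  linarith

section windows
variable (G : ℕ → ℝ) (q : ℕ)

/-- Window sum with `q + 1` terms. -/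
noncomputable def Hp (a : ℕ) : ℝ := ∑ b ∈ range (q + 1), G (a + b)
/-- Window sum with `q` terms. -/
noncomputable def Hq (a : ℕ) : ℝ := ∑ b ∈ range q, G (a + b)

theorem Hp_eq (a : ℕ) : Hp G q a = Hq G q a + G (a + q) := by
  unfold Hp Hq
  rw [sum_range_succ]

theorem Hp_eq' (a : ℕ) : Hp G q a = Hq G q (a + 1) + G a := by
  unfold Hp Hq
  rw [sum_range_succ']
  congr 1
  refine sum_congr rfl fun b _ => ?_
  congr 1
  omega

variable {G}

theorem Hq_nonneg (hG0 : ∀ x, 0 ≤ G x) (a : ℕ) : 0 ≤ Hq G q a := sum_nonneg fun _ _ => hG0 _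
theorem Hp_nonneg (hG0 : ∀ x, 0 ≤ G x) (a : ℕ) : 0 ≤ Hp G q a := sum_nonneg fun _ _ => hG0 _

theorem outer_a (hPF : PFn G) (a b : ℕ) (hab : a ≤ b) :
    Hq G q a * Hp G q b ≤ Hp G q a * Hq G q b := by
  rw [Hp_eq, Hp_eq]
  have key : Hq G q a * G (b + q) ≤ G (a + q) * Hq G q b := by
    unfold Hq
    rw [sum_mul, mul_sum]
    refine sum_le_sum fun x hx => ?_
    have hx' := mem_range.mp hx
    exact hPF (a + x) (a + q) (b + x) (b + q) (by omega) (by omega) (by omega)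
  nlinarith

theorem outer_b (hPF : PFn G) (a b : ℕ) (hab : a ≤ b) :
    Hp G q a * Hq G q (b + 1) ≤ Hq G q (a + 1) * Hp G q b := by
  have e1 := Hp_eq' G q a
  have e2 := Hp_eq' G q b
  have key : G a * Hp G q b ≤ Hp G q a * G b := by
    unfold Hp
    rw [mul_sum, sum_mul]
    refine sum_le_sum fun x _ => ?_
    exact hPF a (a + x) b (b + x) (by omega) hab (by omega)
  have e3 : Hq G q (a + 1) = Hp G q a - G a := by linarith
  have e4 : Hq G q (b + 1) = Hp G q b - G b := by linarith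
  rw [e3, e4]
  nlinarith

end windows

/-- The middle mass. -/
noncomputable def ggm (G : ℕ → ℝ) (p q : ℕ) : ℝ := ∑ l ∈ Ico p q, G l
/-- Tail mass. -/
noncomputable def Gam (G : ℕ → ℝ) (p a : ℕ) : ℝ := ∑ l ∈ Ico a p, G l

theorem Hq_window (G : ℕ → ℝ) (q a : ℕ) : Hq G q a = ∑ l ∈ Ico a (a + q), G l := by
  unfold Hq
  rw [sum_Ico_eq_sum_range]
  congr 1
  simp

theorem Hq_split (G : ℕ → ℝ) (p q a : ℕ) (hap : a ≤ p) (hpq : p ≤ q) :
    Hq G q a = Gam G p a + ggm G p q + ∑ l ∈ Ico q (a + q), G l := by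
  rw [Hq_window]
  unfold Gam ggm
  rw [sum_Ico_consecutive _ hap hpq, sum_Ico_consecutive _ (by omega) (by omega)]

theorem Gam_nonneg {G : ℕ → ℝ} (hG0 : ∀ x, 0 ≤ G x) (p a : ℕ) : 0 ≤ Gam G p a :=
  sum_nonneg fun _ _ => hG0 _

theorem ggm_nonneg {G : ℕ → ℝ} (hG0 : ∀ x, 0 ≤ G x) (p q : ℕ) : 0 ≤ ggm G p q :=
  sum_nonneg fun _ _ => hG0 _

theorem ggm_le_Hp {G : ℕ → ℝ} (hG0 : ∀ x, 0 ≤ G x) (p q a : ℕ) (hap : a ≤ p) (hpq : p ≤ q) :
    ggm G p q ≤ Hp G q a := by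
  rw [Hp_eq, Hq_split G p q a hap hpq]
  have h1 := Gam_nonneg hG0 p a
  have h2 : 0 ≤ ∑ l ∈ Ico q (a + q), G l := sum_nonneg fun _ _ => hG0 _
  have h3 := hG0 (a + q)
  linarith

/-- Total masses differ by the middle mass. -/
theorem ZB_eq (G : ℕ → ℝ) (p q : ℕ) (hpq : p ≤ q) :
    ∑ a ∈ range (p + 1), Hq G q a = ∑ a ∈ range p, Hp G q a + ggm G p q := by
  rw [sum_range_succ']
  have e1 : ∑ a ∈ range p, Hq G q (a + 1) = ∑ a ∈ range p, Hp G q a - ∑ l ∈ range p, G l := by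
    rw [← sum_sub_distrib]
    refine sum_congr rfl fun a _ => ?_
    have := Hp_eq' G q a
    linarith
  have e2 : Hq G q 0 = ∑ l ∈ range p, G l + ggm G p q := by
    rw [Hq_window]
    unfold ggm
    rw [range_eq_Ico, sum_Ico_consecutive _ (Nat.zero_le p) (by omega)]
    simp
  rw [e1, e2]
  ring

end P328
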