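import Vale.Agent.Lib.P328.Core

/-!
# P328: the contraction constant in the two-dimensional core
-/

namespace P328
open Finset

section mono
variable {G : ℕ → ℝ} {s : ℤ}

theorem mono_up (hmono : ∀ x y : ℕ, |2 * (x : ℤ) - s| ≤ |2 * (y : ℤ) - s| → G y ≤ G x)
    (x y : ℕ) (hyx : y ≤ x) (hs : (x : ℤ) + y ≤ s) : G y ≤ G x := by
  apply hmono
  rw [abs_of_nonpos (by omega : 2 * (y : ℤ) - s ≤ 0)]
  exact abs_le.mpr ⟨by omega, by omega⟩

theorem mono_dn (hmono : ∀ x y : ℕ, |2 * (x : ℤ) - s| ≤ |2 * (y : ℤ) - s| → G y ≤ G x)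
    (x y : ℕ) (hxy : x ≤ y) (hs : s ≤ (x : ℤ) + y) : G y ≤ G x := by
  apply hmono
  rw [abs_of_nonneg (by omega : 0 ≤ 2 * (y : ℤ) - s)]
  exact abs_le.mpr ⟨by omega, by omega⟩

theorem sum_rev_window (G : ℕ → ℝ) (p n : ℕ) (h : n ≤ p) :
    ∑ i ∈ range n, G (p - 1 - i) = ∑ l ∈ Ico (p - n) p, G l := by
  rw [sum_Ico_eq_sum_range]
  have e : p - (p - n) = n := by omega
  rw [e, ← sum_range_reflect]
  refine sum_congr rfl fun i hi => ?_
  have := mem_range.mp hi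
  congr 1
  omega

theorem Gam_split (G : ℕ → ℝ) (p a c : ℕ) (hac : a ≤ c) (hcp : c ≤ p) :
    Gam G p a = ∑ l ∈ Ico a c, G l + Gam G p c := by
  unfold Gam
  rw [sum_Ico_consecutive _ hac hcp]

theorem Gamma_le_two (hG0 : ∀ x, 0 ≤ G x)
    (hmono : ∀ x y : ℕ, |2 * (x : ℤ) - s| ≤ |2 * (y : ℤ) - s| → G y ≤ G x)
    (p a c : ℕ) (hac : a ≤ c) (h2 : 2 * c ≤ a + p) (hs : (a : ℤ) + p - 1 ≤ s) :
    Gam G p a ≤ 2 * Gam G p c := by
  have hcp : c ≤ p := by omega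
  rw [Gam_split G p a c hac hcp]
  have h1 : ∑ l ∈ Ico a c, G l ≤ Gam G p c := by
    rw [sum_Ico_eq_sum_range]
    calc ∑ i ∈ range (c - a), G (a + i) ≤ ∑ i ∈ range (c - a), G (p - 1 - i) :=
          sum_le_sum fun i hi => by
            have := mem_range.mp hi
            exact mono_up hmono (p - 1 - i) (a + i) (by omega) (by omega)
      _ = ∑ l ∈ Ico (p - (c - a)) p, G l := sum_rev_window G p (c - a) (by omega)
      _ ≤ Gam G p c := by
          unfold Gam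
          apply sum_le_sum_of_subset_of_nonneg
          · intro l hl
            simp only [mem_Ico] at *
            omega
          · intro _ _ _
            exact hG0 _
  linarith

theorem Theta_le (hmono : ∀ x y : ℕ, |2 * (x : ℤ) - s| ≤ |2 * (y : ℤ) - s| → G y ≤ G x)
    (p q a : ℕ) (hpq : p ≤ q) (hap : a ≤ p) (hs : s ≤ p + q - 1) :
    ∑ l ∈ Ico q (a + q), G l ≤ Gam G p (p - a) := by
  rw [sum_Ico_eq_sum_range]
  unfold Gam
  rw [← sum_rev_window G p a hap]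
  have e : a + q - q = a := by omega
  rw [e]
  refine sum_le_sum fun i hi => ?_
  have := mem_range.mp hi
  exact mono_dn hmono (p - 1 - i) (q + i) (by omega) (by omega)

theorem ZB_le (hmono : ∀ x y : ℕ, |2 * (x : ℤ) - s| ≤ |2 * (y : ℤ) - s| → G y ≤ G x)
    (p q : ℕ) (hpq : p ≤ q) (hs : s ≤ p + q - 1) :
    ∑ a ∈ range (p + 1), Hq G q a
      ≤ 2 * ∑ a ∈ range p, Gam G p a + ((p : ℝ) + 1) * ggm G p q := by
  have h : ∀ a ∈ range (p + 1), Hq G q a ≤ Gam G p a + ggm G p q + Gam G p (p - a) := by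
    intro a ha
    have hap := mem_range.mp ha
    rw [Hq_split G p q a (by omega) hpq]
    have := Theta_le hmono p q a hpq (by omega) hs
    linarith
  refine (sum_le_sum h).trans (le_of_eq ?_)
  have e1 : ∑ a ∈ range (p + 1), Gam G p (p - a) = ∑ a ∈ range (p + 1), Gam G p a := by
    have := sum_range_reflect (fun a => Gam G p a) (p + 1)
    simpa using this
  have e2 : ∑ a ∈ range (p + 1), Gam G p a = ∑ a ∈ range p, Gam G p a := by
    rw [sum_range_succ]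
    simp [Gam]
  rw [sum_add_distrib, sum_add_distrib, e1, e2, sum_const, card_range, nsmul_eq_mul]
  push_cast
  ring

theorem Low_le (hG0 : ∀ x, 0 ≤ G x)
    (hmono : ∀ x y : ℕ, |2 * (x : ℤ) - s| ≤ |2 * (y : ℤ) - s| → G y ≤ G x)
    (p k₀ : ℕ) (h2 : 2 * k₀ ≤ p) (hk : 0 < k₀ → (k₀ : ℤ) + p - 1 ≤ s) :
    ∑ a ∈ range p, Gam G p a ≤ 9 * ∑ k ∈ Ico k₀ p, Gam G p k := by
  have hLnn : 0 ≤ ∑ k ∈ Ico k₀ p, Gam G p k := sum_nonneg fun _ _ => Gam_nonneg hG0 _ _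
  have hsplit : ∑ a ∈ range p, Gam G p a
      = ∑ a ∈ range k₀, Gam G p a + ∑ k ∈ Ico k₀ p, Gam G p k := by
    rw [range_eq_Ico, range_eq_Ico, sum_Ico_consecutive _ (Nat.zero_le _) (by omega)]
  rcases Nat.eq_zero_or_pos k₀ with h0 | h0
  · subst h0
    rw [hsplit]
    simp only [range_zero, sum_empty, zero_add]
    linarith
  · have hs := hk h0
    set Γ := Gam G p k₀ with hΓ
    have hΓnn : 0 ≤ Γ := Gam_nonneg hG0 _ _
    have h1 : ∑ a ∈ range k₀, Gam G p a ≤ (k₀ : ℝ) * (2 * Γ) := by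
      have : ∑ a ∈ range k₀, Gam G p a ≤ ∑ _a ∈ range k₀, (2 * Γ) :=
        sum_le_sum fun a ha => by
          have := mem_range.mp ha
          exact Gamma_le_two hG0 hmono p a k₀ (by omega) (by omega) (by omega)
      rwa [sum_const, card_range, nsmul_eq_mul] at this
    set h := (p - k₀) / 2 + 1 with hh'
    have h3 : (h : ℝ) * Γ ≤ 2 * ∑ k ∈ Ico k₀ p, Gam G p k := by
      have e : ∑ k ∈ Ico k₀ p, Gam G p k = ∑ j ∈ range (p - k₀), Gam G p (k₀ + j) :=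
        sum_Ico_eq_sum_range _ _ _
      have e2 : ∑ j ∈ range h, Gam G p (k₀ + j) ≤ ∑ j ∈ range (p - k₀), Gam G p (k₀ + j) := by
        apply sum_le_sum_of_subset_of_nonneg
        · intro j hj
          simp only [mem_range] at *
          omega
        · intro _ _ _
          exact Gam_nonneg hG0 _ _
      have e3 : ∑ _j ∈ range h, Γ ≤ ∑ j ∈ range h, 2 * Gam G p (k₀ + j) :=
        sum_le_sum fun j hj => by
          have := mem_range.mp hj
          exact Gamma_le_two hG0 hmono p k₀ (k₀ + j) (by omega) (by omega) (by omega)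
      rw [sum_const, card_range, nsmul_eq_mul, ← mul_sum] at e3
      rw [e]
      linarith
    have h4 : (k₀ : ℝ) ≤ 2 * h := by
      have : k₀ ≤ 2 * h := by omega
      exact_mod_cast this
    have h5 : (k₀ : ℝ) * (2 * Γ) ≤ 2 * h * (2 * Γ) :=
      mul_le_mul_of_nonneg_right h4 (by linarith)
    rw [hsplit]
    nlinarith

theorem sum_tri (m : ℕ) : ∑ j ∈ range m, ((m : ℝ) - j) = m * (m + 1) / 2 := by
  induction m with
  | zero => simp
  | succ m ih =>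
    rw [sum_range_succ]
    have : ∑ j ∈ range m, (((m + 1 : ℕ) : ℝ) - j) = ∑ j ∈ range m, ((m : ℝ) - j) + m := by
      push_cast
      have : ∑ j ∈ range m, ((m : ℝ) + 1 - j) = ∑ j ∈ range m, (((m : ℝ) - j) + 1) :=
        sum_congr rfl fun j _ => by ring
      rw [this, sum_add_distrib]
      simp
    rw [this, ih]
    push_cast
    ring

theorem M_ge (hG0 : ∀ x, 0 ≤ G x) (p q k₀ : ℕ) (hk : k₀ ≤ p) (hpq : p ≤ q) :
    ggm G p q * (((p - k₀ : ℕ) : ℝ) * (((p - k₀ : ℕ) : ℝ) + 1) / 2)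
      ≤ ∑ k ∈ Ico k₀ p, ∑ a ∈ Ico k p, Hp G q a := by
  have h1 : ∀ k ∈ Ico k₀ p, ggm G p q * ((p : ℝ) - k) ≤ ∑ a ∈ Ico k p, Hp G q a := by
    intro k hk'
    have hk2 := mem_Ico.mp hk'
    have : ∑ _a ∈ Ico k p, ggm G p q ≤ ∑ a ∈ Ico k p, Hp G q a :=
      sum_le_sum fun a ha => ggm_le_Hp hG0 p q a (by have := mem_Ico.mp ha; omega) hpq
    rw [sum_const, Nat.card_Ico, nsmul_eq_mul, Nat.cast_sub (by omega)] at this
    linarith
  refine le_trans (le_of_eq ?_) (sum_le_sum h1)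
  rw [← mul_sum, ← sum_tri, sum_Ico_eq_sum_range]
  congr 1
  refine sum_congr rfl fun j _ => ?_
  rw [Nat.cast_sub hk]
  push_cast
  ring

end mono

theorem d_formula (G : ℕ → ℝ) (p q k : ℕ) (hk : k < p)
    (hZA : 0 < ∑ a ∈ range p, Hp G q a) (hZB : 0 < ∑ a ∈ range (p + 1), Hq G q a) :
    nmP (Hp G q) p k - cc (nmP (Hp G q) p) (nmP (Hq G q) (p + 1)) k
      = (∑ a ∈ Ico k p, Hp G q a) / (∑ a ∈ range p, Hp G q a)
        - (∑ a ∈ Ico k p, Hp G q a - Gam G p k) / (∑ a ∈ range (p + 1), Hq G q a) := by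
  set P := nmP (Hp G q) p with hP
  set Q := nmP (Hq G q) (p + 1) with hQ
  have sP : ∑ a ∈ range p, P a = 1 := sum_nmP _ _ hZA
  have sQ : ∑ a ∈ range (p + 1), Q a = 1 := sum_nmP _ _ hZB
  have e1 : ∑ a ∈ range k, P a + ∑ a ∈ Ico k p, P a = 1 := by
    rw [← sP, range_eq_Ico, range_eq_Ico, sum_Ico_consecutive _ (Nat.zero_le _) hk.le]
  have e2 : ∑ a ∈ range (k + 1), Q a + ∑ a ∈ Ico (k + 1) (p + 1), Q a = 1 := by
    rw [← sQ, range_eq_Ico, range_eq_Ico, sum_Ico_consecutive _ (Nat.zero_le _) (by omega)]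
  have e3 : ∑ a ∈ Ico k p, P a = (∑ a ∈ Ico k p, Hp G q a) / (∑ a ∈ range p, Hp G q a) := by
    simp only [hP, nmP]
    rw [sum_div]
  have e4 : ∑ a ∈ Ico (k + 1) (p + 1), Q a
      = (∑ a ∈ Ico k p, Hp G q a - Gam G p k) / (∑ a ∈ range (p + 1), Hq G q a) := by
    simp only [hQ, nmP]
    rw [← sum_div]
    congr 1
    rw [← sum_Ico_add' (fun a => Hq G q a) k p 1]
    unfold Gam
    rw [← sum_sub_distrib]
    refine sum_congr rfl fun a _ => ?_
    have := Hp_eq' G q a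
    linarith
  rw [← e3, ← e4]
  unfold cc
  rw [sum_sub_distrib, sum_range_succ P k]
  linarith

theorem arith_core (ZA ZB gg M L : ℝ) (p m : ℕ) (hZA : 0 < ZA) (hZB : ZB = ZA + gg) (hgg : 0 ≤ gg)
    (hM : gg * ((m : ℝ) * ((m : ℝ) + 1) / 2) ≤ M) (hL : 0 ≤ L)
    (hb : ZB ≤ 18 * L + ((p : ℝ) + 1) * gg) (h2m : p ≤ 2 * m) (h1 : 1 ≤ p) :
    3 / 128 ≤ M / ZA - (M - L) / ZB := by
  have hZB' : 0 < ZB := by linarith
  have hm0 : (0 : ℝ) ≤ m := Nat.cast_nonneg _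
  have hp1 : (1 : ℝ) ≤ p := by exact_mod_cast h1
  have hp2 : (p : ℝ) ≤ 2 * m := by exact_mod_cast h2m
  have hMnn : 0 ≤ M := by
    refine le_trans ?_ hM
    positivity
  have key : 3 * (ZA * ZB) ≤ 128 * (M * gg + L * ZA) := by
    by_cases hc : ((p : ℝ) + 1) * gg ≤ 18 * L
    · have h36 : ZB ≤ 36 * L := by linarith
      have h1 : ZA * ZB ≤ ZA * (36 * L) := mul_le_mul_of_nonneg_left h36 hZA.le
      have h2 : 0 ≤ M * gg := mul_nonneg hMnn hgg
      have h3 : 0 ≤ L * ZA := mul_nonneg hL hZA.le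
      nlinarith
    · push Not at hc
      have h2W : ZB ≤ 2 * (((p : ℝ) + 1) * gg) := by linarith
      have hZAB : ZA ≤ ZB := by linarith
      have hW0 : 0 ≤ ((p : ℝ) + 1) * gg := by positivity
      have h3 : ZA * ZB ≤ (2 * (((p : ℝ) + 1) * gg)) * (2 * (((p : ℝ) + 1) * gg)) := by
        apply mul_le_mul (by linarith) h2W hZB'.le (by positivity)
      have h4 : 3 * ((p : ℝ) + 1) ^ 2 ≤ 16 * ((m : ℝ) * ((m : ℝ) + 1)) := by
        nlinarith
      have h5 : gg * ((m : ℝ) * ((m : ℝ) + 1) / 2) * gg ≤ M * gg :=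
        mul_le_mul_of_nonneg_right hM hgg
      have h6 : 0 ≤ L * ZA := mul_nonneg hL hZA.le
      have hgg2 : 0 ≤ gg * gg := mul_self_nonneg _
      have h7 : 3 * ((p : ℝ) + 1) ^ 2 * (gg * gg) ≤ 16 * ((m : ℝ) * ((m : ℝ) + 1)) * (gg * gg) :=
        mul_le_mul_of_nonneg_right h4 hgg2
      nlinarith
  rw [div_sub_div _ _ hZA.ne' hZB'.ne', div_le_div_iff₀ (by norm_num) (mul_pos hZA hZB')]
  rw [hZB] at key ⊢
  nlinarith

/-- The two-dimensional core. -/
theorem core2D (G : ℕ → ℝ) (F : ℕ → ℕ → ℝ) (p q : ℕ) (s : ℤ) (hp : 1 ≤ p) (hpq : p ≤ q)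
    (hG0 : ∀ x, 0 ≤ G x) (hPF : PFn G) (hs : s ≤ p + q - 1)
    (hmono : ∀ x y : ℕ, |2 * (x : ℤ) - s| ≤ |2 * (y : ℤ) - s| → G y ≤ G x)
    (hF1 : ∀ a < p, ∀ b < q, 0 < G (a + b) → 0 < G (a + 1 + b) → F a b - F (a + 1) b ≤ 1)
    (hF2 : ∀ a < p, ∀ b < q, 0 < G (a + b) → 0 < G (a + (b + 1)) → F a (b + 1) - F a b ≤ 1)
    (hF3 : ∀ a < p, ∀ b < q, 0 < G (a + 1 + b) → 0 < G (a + (b + 1)) →
      F a (b + 1) - F (a + 1) b ≤ 1)
    (hZA : 0 < ∑ a ∈ range p, Hp G q a) (hZB : 0 < ∑ a ∈ range (p + 1), Hq G q a) :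
    (∑ a ∈ range p, ∑ b ∈ range (q + 1), G (a + b) * F a b) / (∑ a ∈ range p, Hp G q a)
      - (∑ a ∈ range (p + 1), ∑ b ∈ range q, G (a + b) * F a b)
        / (∑ a ∈ range (p + 1), Hq G q a) ≤ 253 / 256 := by
  obtain ⟨k₀, hk1, hk2, hk3⟩ : ∃ k₀ : ℕ, s - q ≤ 2 * (k₀ : ℤ) ∧ 2 * k₀ ≤ p ∧
      (0 < k₀ → 2 * (k₀ : ℤ) ≤ s - q + 1) := by
    refine ⟨((s - q + 1) / 2).toNat, ?_, ?_, ?_⟩ <;> omega
  have hHp := Hp_nonneg (q := q) hG0
  have hHq := Hq_nonneg (q := q) hG0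
  set ZA := ∑ a ∈ range p, Hp G q a with hZAd
  set ZB := ∑ a ∈ range (p + 1), Hq G q a with hZBd
  set P := nmP (Hp G q) p with hP
  set Q := nmP (Hq G q) (p + 1) with hQ
  set Φ : ℕ → ℝ := fun a => (∑ b ∈ range (q + 1), G (a + b) * F a b) / Hp G q a with hΦ
  set Ψ : ℕ → ℝ := fun a => (∑ b ∈ range q, G (a + b) * F a b) / Hq G q a with hΨ
  set u : ℕ → ℝ := fun k => if k₀ ≤ k then 1 / 2 else 1 with hu
  have sP : ∑ a ∈ range p, P a = 1 := sum_nmP _ _ hZA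
  have sQ : ∑ a ∈ range (p + 1), Q a = 1 := sum_nmP _ _ hZB
  have e1 : ∑ a ∈ range p, P a * Φ a
      = (∑ a ∈ range p, ∑ b ∈ range (q + 1), G (a + b) * F a b) / ZA := by
    rw [sum_div]
    refine sum_congr rfl fun a _ => ?_
    simp only [hP, nmP, hΦ]
    refine card_mul_avg _ _ _ fun hc => ?_
    refine sum_eq_zero fun b hb => ?_
    have : G (a + b) = 0 := by
      have h0 := (sum_eq_zero_iff_of_nonneg (fun b _ => hG0 (a + b))).mp hc
      exact h0 b hb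
    rw [this, zero_mul]
  have e2 : ∑ a ∈ range (p + 1), Q a * Ψ a
      = (∑ a ∈ range (p + 1), ∑ b ∈ range q, G (a + b) * F a b) / ZB := by
    rw [sum_div]
    refine sum_congr rfl fun a _ => ?_
    simp only [hQ, nmP, hΨ]
    refine card_mul_avg _ _ _ fun hc => ?_
    refine sum_eq_zero fun b hb => ?_
    have : G (a + b) = 0 := by
      have h0 := (sum_eq_zero_iff_of_nonneg (fun b _ => hG0 (a + b))).mp hc
      exact h0 b hb
    rw [this, zero_mul]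
  have hT := transport_le P Q Φ Ψ u p sP sQ
    (fun k hk => cc_nonneg_of _ _ p hHp hHq hZA hZB
      (fun a b hab _ => outer_a q hPF a b hab) k hk)
    (fun k hk => cc_le_of _ _ p hHp hHq hZA hZB
      (fun a b hab _ => outer_b q hPF a b hab) k hk)
    (fun k hk hPk hQk => by
      have h1 : 0 < Hp G q k := (nmP_pos_iff _ p hZA k).mp hPk
      have h2 : 0 < Hq G q k := (nmP_pos_iff _ (p + 1) hZB k).mp hQk
      have hpf : ∀ a b, a ≤ b → b < q →
          G (k + a) * G (k + (b + 1)) ≤ G (k + (a + 1)) * G (k + b) := fun a b hab _ =>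
        hPF (k + a) (k + (a + 1)) (k + b) (k + (b + 1)) (by omega) (by omega) (by omega)
      have hi := inner_trunc (fun b => G (k + b)) (F k) q (fun _ => hG0 _) h2 hpf
        (fun b hb hb1 hb2 => hF2 k hk b hb hb1 hb2)
      refine hi.trans ?_
      simp only [hu]
      split_ifs with hk0
      · refine uu_le_half _ q (fun _ => hG0 _) h2 fun b hb => ?_
        exact mono_dn hmono (k + b) (k + q) (by omega) (by push_cast; omega)
      · exact uu_le_one _ q (fun _ => hG0 _) h2 hpf)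
    (fun k hk hPk hQk => by
      have h1 : 0 < Hp G q k := (nmP_pos_iff _ p hZA k).mp hPk
      have h2 : 0 < Hq G q (k + 1) := (nmP_pos_iff _ (p + 1) hZB (k + 1)).mp hQk
      exact inner_shift G (F (k + 1)) (F k) k q hG0 hPF h2 h1
        (fun b hb hb1 hb2 => hF1 k hk b hb hb2 hb1)
        (fun b hb hb1 hb2 => hF3 k hk b hb hb1 hb2))
  rw [e1, e2] at hT
  refine hT.trans ?_
  -- the arithmetic
  set d : ℕ → ℝ := fun k => P k - cc P Q k with hd
  have hk0p : k₀ ≤ p := by omega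
  have e3 : ∑ k ∈ range p, ((P k - cc P Q k) * u k + cc P Q k)
      = 1 - (∑ k ∈ Ico k₀ p, d k) / 2 := by
    have e4 : ∀ k, (P k - cc P Q k) * u k + cc P Q k = P k - d k * (1 - u k) := by
      intro k
      simp only [hd]
      ring
    simp only [e4]
    rw [sum_sub_distrib, sP, range_eq_Ico,
      ← sum_Ico_consecutive _ (Nat.zero_le k₀) hk0p]
    have e5 : ∑ k ∈ Ico 0 k₀, d k * (1 - u k) = 0 := by
      refine sum_eq_zero fun k hk => ?_
      have := (mem_Ico.mp hk).2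
      simp only [hu]
      rw [if_neg (by omega)]
      ring
    have e6 : ∑ k ∈ Ico k₀ p, d k * (1 - u k) = (∑ k ∈ Ico k₀ p, d k) / 2 := by
      rw [sum_div]
      refine sum_congr rfl fun k hk => ?_
      have := (mem_Ico.mp hk).1
      simp only [hu]
      rw [if_pos this]
      ring
    rw [e5, e6]
    ring
  rw [e3]
  set M := ∑ k ∈ Ico k₀ p, ∑ a ∈ Ico k p, Hp G q a with hM
  set L := ∑ k ∈ Ico k₀ p, Gam G p k with hL
  set gg := ggm G p q with hgg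
  have e7 : ∑ k ∈ Ico k₀ p, d k = M / ZA - (M - L) / ZB := by
    have : ∀ k ∈ Ico k₀ p, d k = (∑ a ∈ Ico k p, Hp G q a) / ZA
        - (∑ a ∈ Ico k p, Hp G q a - Gam G p k) / ZB := fun k hk =>
      d_formula G p q k (mem_Ico.mp hk).2 hZA hZB
    rw [sum_congr rfl this, sum_sub_distrib, ← sum_div, ← sum_div, sum_sub_distrib]
  have hLnn : 0 ≤ L := sum_nonneg fun _ _ => Gam_nonneg hG0 _ _
  have hb1 := ZB_le hmono p q hpq hs
  have hb2 := Low_le hG0 hmono p k₀ hk2 (fun h0 => by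
    have := hk3 h0
    omega)
  have hfin := arith_core ZA ZB gg M L p (p - k₀) hZA (ZB_eq G p q hpq) (ggm_nonneg hG0 _ _)
    (M_ge hG0 p q k₀ hk0p hpq) hLnn (by linarith) (by omega) hp
  rw [e7]
  linarith

end P328
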