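import Vale.Agent.Lib.P328.Core2

/-!
# P328: comparing uniform measures on a level of two adjacent boxes
-/

namespace P328
open Finset

/-- `y` is obtained from `x` by moving one unit between two coordinates. -/
def Adj {n : ℕ} (x y : Fin n → ℕ) : Prop :=
  ∃ i j, i ≠ j ∧ y i = x i + 1 ∧ x j = y j + 1 ∧ ∀ l, l ≠ i → l ≠ j → y l = x l

theorem Adj.symm {n : ℕ} {x y : Fin n → ℕ} (h : Adj x y) : Adj y x := by
  obtain ⟨i, j, hij, h1, h2, h3⟩ := h
  exact ⟨j, i, hij.symm, h2, h1, fun l hl1 hl2 => (h3 l hl2 hl1).symm⟩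

theorem Adj.totalZ_eq {n : ℕ} {x y : Fin n → ℕ} (h : Adj x y) : totalZ x = totalZ y := by
  obtain ⟨i, j, hij, h1, h2, h3⟩ := h
  have : ∀ l, (y l : ℤ) = (x l : ℤ) + ((if l = i then 1 else 0) - (if l = j then 1 else 0)) := by
    intro l
    by_cases hi : l = i
    · subst hi
      simp [hij, h1]
    · by_cases hj : l = j
      · subst hj
        simp [hi, h2]
      · simp [hi, hj, h3 l hi hj]
  unfold totalZ
  simp only [this]
  rw [sum_add_distrib, sum_sub_distrib]
  simp

theorem NN_eq_sum {n : ℕ} (v : Fin n → ℕ) (t : ℤ) : NN v t = ∑ _x ∈ lvl v t, (1 : ℝ) := by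
  unfold NN
  simp

theorem NN_mul_avg {n : ℕ} (v : Fin n → ℕ) (t : ℤ) (φ : (Fin n → ℕ) → ℝ) :
    NN v t * ((∑ z ∈ lvl v t, φ z) / NN v t) = ∑ z ∈ lvl v t, φ z := by
  by_cases h : NN v t = 0
  · have : lvl v t = ∅ := by
      unfold NN at h
      simpa using h
    rw [this]
    simp
  · field_simp

/-- Reveal two coordinates. -/
theorem sum_lvl2 {m : ℕ} (a0 b0 : ℕ) (rest : Fin m → ℕ) (r : ℤ)
    (φ : (Fin (m + 2) → ℕ) → ℝ) :
    ∑ x ∈ lvl (Fin.cons a0 (Fin.cons b0 rest) : Fin (m + 2) → ℕ) r, φ x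
      = ∑ a ∈ range (a0 + 1), ∑ b ∈ range (b0 + 1),
          ∑ z ∈ lvl rest (r - ((a + b : ℕ) : ℤ)), φ (Fin.cons a (Fin.cons b z)) := by
  rw [sum_lvl_succ]
  simp only [Fin.cons_zero, Fin.cons_succ]
  refine sum_congr rfl fun a _ => ?_
  rw [sum_lvl_succ]
  simp only [Fin.cons_zero, Fin.cons_succ]
  refine sum_congr rfl fun b _ => ?_
  have e : r - (a : ℤ) - (b : ℤ) = r - ((a + b : ℕ) : ℤ) := by
    push_cast
    ring
  rw [e]

theorem cons2_mem {m : ℕ} {a0 b0 a b : ℕ} {rest z : Fin m → ℕ} {r : ℤ} (ha : a ≤ a0) (hb : b ≤ b0)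
    (hz : z ∈ lvl rest (r - ((a + b : ℕ) : ℤ))) :
    (Fin.cons a (Fin.cons b z) : Fin (m + 2) → ℕ) ∈
      lvl (Fin.cons a0 (Fin.cons b0 rest) : Fin (m + 2) → ℕ) r := by
  rw [mem_lvl] at hz ⊢
  refine ⟨?_, ?_⟩
  · intro l
    refine Fin.cases ?_ (fun l => Fin.cases ?_ (fun l => ?_) l) l
    · simpa using ha
    · simpa using hb
    · simpa using hz.1 l
  · rw [Fin.sum_univ_succ, Fin.sum_univ_succ]
    simp only [Fin.cons_zero, Fin.cons_succ]
    rw [hz.2]
    push_cast
    ring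

theorem update_mem {m : ℕ} {rest z : Fin m → ℕ} {t : ℤ} (p : Fin m) (hz : z ∈ lvl rest t)
    (hp : z p < rest p) : Function.update z p (z p + 1) ∈ lvl rest (t + 1) := by
  rw [mem_lvl] at hz ⊢
  refine ⟨?_, ?_⟩
  · intro l
    by_cases hl : l = p
    · subst hl
      simpa using hp
    · simpa [Function.update_of_ne hl] using hz.1 l
  · have : ∀ l, ((Function.update z p (z p + 1) l : ℕ) : ℤ) = (z l : ℤ) + (if l = p then 1 else 0) := by
      intro l
      by_cases hl : l = p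
      · subst hl
        simp
      · simp [hl]
    simp only [this]
    rw [sum_add_distrib, hz.2]
    simp

theorem adj1 {m : ℕ} (a b : ℕ) (z : Fin m → ℕ) (p : Fin m) :
    Adj (Fin.cons a (Fin.cons b (Function.update z p (z p + 1))) : Fin (m + 2) → ℕ)
      (Fin.cons (a + 1) (Fin.cons b z)) := by
  refine ⟨0, p.succ.succ, (Fin.succ_ne_zero _).symm, ?_, ?_, fun l => ?_⟩
  · simp only [Fin.cons_zero]
  · simp only [Fin.cons_succ, Function.update_self]
  · refine Fin.cases ?_ (fun l => Fin.cases ?_ (fun l => ?_) l) l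
    · intro h1
      exact absurd rfl h1
    · intro _ _
      simp only [Fin.cons_succ, Fin.cons_zero]
    · intro _ h2
      have : l ≠ p := fun h => h2 (by rw [h])
      simp only [Fin.cons_succ, Function.update_of_ne this]

theorem adj2 {m : ℕ} (a b : ℕ) (z : Fin m → ℕ) (p : Fin m) :
    Adj (Fin.cons a (Fin.cons (b + 1) z) : Fin (m + 2) → ℕ)
      (Fin.cons a (Fin.cons b (Function.update z p (z p + 1)))) := by
  refine ⟨p.succ.succ, (0 : Fin (m + 1)).succ, ?_, ?_, ?_, fun l => ?_⟩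
  · intro h
    exact (Fin.succ_ne_zero p) (Fin.succ_injective _ h)
  · simp only [Fin.cons_succ, Function.update_self]
  · simp only [Fin.cons_succ, Fin.cons_zero]
  · refine Fin.cases ?_ (fun l => Fin.cases ?_ (fun l => ?_) l) l
    · intro _ _
      simp only [Fin.cons_zero]
    · intro _ h2
      exact absurd rfl h2
    · intro h1 _
      have : l ≠ p := fun h => h1 (by rw [h])
      simp only [Fin.cons_succ, Function.update_of_ne this]

theorem adj3 {m : ℕ} (a b : ℕ) (z : Fin m → ℕ) :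
    Adj (Fin.cons a (Fin.cons (b + 1) z) : Fin (m + 2) → ℕ)
      (Fin.cons (a + 1) (Fin.cons b z)) := by
  refine ⟨0, (0 : Fin (m + 1)).succ, (Fin.succ_ne_zero _).symm, ?_, ?_, fun l => ?_⟩
  · simp only [Fin.cons_zero]
  · simp only [Fin.cons_succ, Fin.cons_zero]
  · refine Fin.cases ?_ (fun l => Fin.cases ?_ (fun l => ?_) l) l
    · intro h1
      exact absurd rfl h1
    · intro _ h2
      exact absurd rfl h2
    · intro _ _
      simp only [Fin.cons_succ]

/-- Lemma D for the first two coordinates. -/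
theorem lemmaD_cols {m : ℕ} (rest : Fin m → ℕ) (p' q' : ℕ) (r : ℤ) (hpq : p' ≤ q')
    (hr : 2 * r ≤ (p' : ℤ) + q' + 1 + totalZ rest) (f : (Fin (m + 2) → ℕ) → ℝ)
    (hLip : ∀ x ∈ lvl (Fin.cons p' (Fin.cons (q' + 1) rest) : Fin (m + 2) → ℕ) r,
      ∀ y ∈ lvl (Fin.cons (p' + 1) (Fin.cons q' rest) : Fin (m + 2) → ℕ) r,
      Adj x y → f x - f y ≤ 1)
    (hA : 0 < NN (Fin.cons p' (Fin.cons (q' + 1) rest) : Fin (m + 2) → ℕ) r)
    (hB : 0 < NN (Fin.cons (p' + 1) (Fin.cons q' rest) : Fin (m + 2) → ℕ) r) :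
    (∑ x ∈ lvl (Fin.cons p' (Fin.cons (q' + 1) rest) : Fin (m + 2) → ℕ) r, f x)
        / NN (Fin.cons p' (Fin.cons (q' + 1) rest) : Fin (m + 2) → ℕ) r
      - (∑ x ∈ lvl (Fin.cons (p' + 1) (Fin.cons q' rest) : Fin (m + 2) → ℕ) r, f x)
        / NN (Fin.cons (p' + 1) (Fin.cons q' rest) : Fin (m + 2) → ℕ) r ≤ 253 / 256 := by
  set G : ℕ → ℝ := fun l => NN rest (r - (l : ℤ)) with hG
  set F : ℕ → ℕ → ℝ := fun a b =>
    (∑ z ∈ lvl rest (r - ((a + b : ℕ) : ℤ)), f (Fin.cons a (Fin.cons b z))) / G (a + b) with hF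
  have hG0 : ∀ x, 0 ≤ G x := fun _ => NN_nonneg _ _
  have hPF : PFn G := by
    intro a b c d hab hac hsum
    have := PF_NN rest (r - d) (r - b) (r - c) (r - a) (by omega) (by omega) (by omega)
    simp only [hG]
    linarith
  have hmono : ∀ x y : ℕ, |2 * (x : ℤ) - (2 * r - totalZ rest)|
      ≤ |2 * (y : ℤ) - (2 * r - totalZ rest)| → G y ≤ G x := by
    intro x y hxy
    refine NN_mono rest (r - x) (r - y) ?_
    have e : ∀ w : ℕ, |2 * (r - (w : ℤ)) - totalZ rest| = |2 * (w : ℤ) - (2 * r - totalZ rest)| := by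
      intro w
      rw [← abs_neg]
      congr 1
      ring
    rw [e, e]
    exact hxy
  have sumA : ∀ φ : (Fin (m + 2) → ℕ) → ℝ,
      ∑ x ∈ lvl (Fin.cons p' (Fin.cons (q' + 1) rest) : Fin (m + 2) → ℕ) r, φ x
      = ∑ a ∈ range (p' + 1), ∑ b ∈ range (q' + 1 + 1),
          ∑ z ∈ lvl rest (r - ((a + b : ℕ) : ℤ)), φ (Fin.cons a (Fin.cons b z)) :=
    fun φ => sum_lvl2 _ _ _ _ _
  have sumB : ∀ φ : (Fin (m + 2) → ℕ) → ℝ,
      ∑ x ∈ lvl (Fin.cons (p' + 1) (Fin.cons q' rest) : Fin (m + 2) → ℕ) r, φ x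
      = ∑ a ∈ range (p' + 1 + 1), ∑ b ∈ range (q' + 1),
          ∑ z ∈ lvl rest (r - ((a + b : ℕ) : ℤ)), φ (Fin.cons a (Fin.cons b z)) :=
    fun φ => sum_lvl2 _ _ _ _ _
  have eA : NN (Fin.cons p' (Fin.cons (q' + 1) rest) : Fin (m + 2) → ℕ) r
      = ∑ a ∈ range (p' + 1), Hp G (q' + 1) a := by
    rw [NN_eq_sum, sumA]
    refine sum_congr rfl fun a _ => sum_congr rfl fun b _ => ?_
    rw [← NN_eq_sum]
  have eB : NN (Fin.cons (p' + 1) (Fin.cons q' rest) : Fin (m + 2) → ℕ) r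
      = ∑ a ∈ range (p' + 1 + 1), Hq G (q' + 1) a := by
    rw [NN_eq_sum, sumB]
    refine sum_congr rfl fun a _ => sum_congr rfl fun b _ => ?_
    rw [← NN_eq_sum]
  have nA : ∑ x ∈ lvl (Fin.cons p' (Fin.cons (q' + 1) rest) : Fin (m + 2) → ℕ) r, f x
      = ∑ a ∈ range (p' + 1), ∑ b ∈ range (q' + 1 + 1), G (a + b) * F a b := by
    rw [sumA]
    refine sum_congr rfl fun a _ => sum_congr rfl fun b _ => ?_
    simp only [hF, hG]
    rw [NN_mul_avg]
  have nB : ∑ x ∈ lvl (Fin.cons (p' + 1) (Fin.cons q' rest) : Fin (m + 2) → ℕ) r, f x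
      = ∑ a ∈ range (p' + 1 + 1), ∑ b ∈ range (q' + 1), G (a + b) * F a b := by
    rw [sumB]
    refine sum_congr rfl fun a _ => sum_congr rfl fun b _ => ?_
    simp only [hF, hG]
    rw [NN_mul_avg]
  rw [nA, nB, eA, eB]
  rw [eA] at hA
  rw [eB] at hB
  refine core2D G F (p' + 1) (q' + 1) (2 * r - totalZ rest) (by omega) (by omega) hG0 hPF
    (by push_cast; linarith) hmono ?_ ?_ ?_ hA hB
  · -- level shift in the first coordinate
    intro a ha b hb h0 h1
    set t := r - ((a + 1 + b : ℕ) : ℤ) with ht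
    have et : r - ((a + b : ℕ) : ℤ) = t + 1 := by
      rw [ht]
      push_cast
      ring
    have h0' : 0 < NN rest (t + 1) := by
      have : G (a + b) = NN rest (t + 1) := by
        simp only [hG]
        rw [et]
      rwa [this] at h0
    have h1' : 0 < NN rest t := h1
    have key := level_shift rest t (fun z => - f (Fin.cons (a + 1) (Fin.cons b z)))
      (fun z => - f (Fin.cons a (Fin.cons b z))) (fun z hz p hp => by
        have hz' : z ∈ lvl rest (r - ((a + 1 + b : ℕ) : ℤ)) := hz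
        have hz2 := update_mem p hz hp
        have hx : (Fin.cons a (Fin.cons b (Function.update z p (z p + 1))) : Fin (m + 2) → ℕ) ∈
            lvl (Fin.cons p' (Fin.cons (q' + 1) rest) : Fin (m + 2) → ℕ) r := by
          refine cons2_mem (by omega) (by omega) ?_
          rw [et]
          exact hz2
        have hy : (Fin.cons (a + 1) (Fin.cons b z) : Fin (m + 2) → ℕ) ∈
            lvl (Fin.cons (p' + 1) (Fin.cons q' rest) : Fin (m + 2) → ℕ) r :=
          cons2_mem (by omega) (by omega) hz'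
        have := hLip _ hx _ hy (adj1 a b z p)
        linarith) h1' h0'
    simp only [sum_neg_distrib, neg_div] at key
    have e2 : F a b = (∑ z ∈ lvl rest (t + 1), f (Fin.cons a (Fin.cons b z))) / NN rest (t + 1) := by
      simp only [hF, hG]
      rw [et]
    have e3 : F (a + 1) b = (∑ z ∈ lvl rest t, f (Fin.cons (a + 1) (Fin.cons b z))) / NN rest t := rfl
    rw [e2, e3]
    linarith
  · -- level shift in the second coordinate
    intro a ha b hb h0 h1
    set t := r - ((a + (b + 1) : ℕ) : ℤ) with ht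
    have et : r - ((a + b : ℕ) : ℤ) = t + 1 := by
      rw [ht]
      push_cast
      ring
    have h0' : 0 < NN rest (t + 1) := by
      have : G (a + b) = NN rest (t + 1) := by
        simp only [hG]
        rw [et]
      rwa [this] at h0
    have h1' : 0 < NN rest t := h1
    have key := level_shift rest t (fun z => f (Fin.cons a (Fin.cons (b + 1) z)))
      (fun z => f (Fin.cons a (Fin.cons b z))) (fun z hz p hp => by
        have hz' : z ∈ lvl rest (r - ((a + (b + 1) : ℕ) : ℤ)) := hz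
        have hz2 := update_mem p hz hp
        have hy : (Fin.cons a (Fin.cons b (Function.update z p (z p + 1))) : Fin (m + 2) → ℕ) ∈
            lvl (Fin.cons (p' + 1) (Fin.cons q' rest) : Fin (m + 2) → ℕ) r := by
          refine cons2_mem (by omega) (by omega) ?_
          rw [et]
          exact hz2
        have hx : (Fin.cons a (Fin.cons (b + 1) z) : Fin (m + 2) → ℕ) ∈
            lvl (Fin.cons p' (Fin.cons (q' + 1) rest) : Fin (m + 2) → ℕ) r :=
          cons2_mem (by omega) (by omega) hz'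
        exact hLip _ hx _ hy (adj2 a b z p)) h1' h0'
    have e2 : F a b = (∑ z ∈ lvl rest (t + 1), f (Fin.cons a (Fin.cons b z))) / NN rest (t + 1) := by
      simp only [hF, hG]
      rw [et]
    have e3 : F a (b + 1) = (∑ z ∈ lvl rest t, f (Fin.cons a (Fin.cons (b + 1) z))) / NN rest t := rfl
    rw [e2, e3]
    exact key
  · -- same level
    intro a ha b hb h0 h1
    set t := r - ((a + (b + 1) : ℕ) : ℤ) with ht
    have h1' : 0 < NN rest t := h1
    have e : a + 1 + b = a + (b + 1) := by omega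
    have e3 : F a (b + 1) = (∑ z ∈ lvl rest t, f (Fin.cons a (Fin.cons (b + 1) z))) / NN rest t := rfl
    have e4 : F (a + 1) b = (∑ z ∈ lvl rest t, f (Fin.cons (a + 1) (Fin.cons b z))) / NN rest t := by
      simp only [hF, hG]
      rw [e]
    rw [e3, e4, ← sub_div, ← sum_sub_distrib, div_le_one h1', NN_eq_sum]
    refine sum_le_sum fun z hz => ?_
    have hx : (Fin.cons a (Fin.cons (b + 1) z) : Fin (m + 2) → ℕ) ∈
        lvl (Fin.cons p' (Fin.cons (q' + 1) rest) : Fin (m + 2) → ℕ) r :=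
      cons2_mem (by omega) (by omega) hz
    have hz' : z ∈ lvl rest (r - ((a + 1 + b : ℕ) : ℤ)) := by
      rw [e]
      exact hz
    have hy : (Fin.cons (a + 1) (Fin.cons b z) : Fin (m + 2) → ℕ) ∈
        lvl (Fin.cons (p' + 1) (Fin.cons q' rest) : Fin (m + 2) → ℕ) r :=
      cons2_mem (by omega) (by omega) hz'
    exact hLip _ hx _ hy (adj3 a b z)

end P328
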