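import Vale.Agent.Lib.P328.Transport

/-!
# P328: levels of a box, rank numbers, log-concavity, and the level-shift coupling
-/

namespace P328
open Finset

/-- Two-point log-concavity, in the total-positivity form. -/
def PF (f : ℤ → ℝ) : Prop :=
  ∀ a b c d : ℤ, a ≤ b → a ≤ c → b + c = a + d → f a * f d ≤ f b * f c

/-- Convolution with an interval. -/
noncomputable def hh (f : ℤ → ℝ) (v : ℕ) (t : ℤ) : ℝ := ∑ i ∈ range (v + 1), f (t - i)

theorem sum_ite_le (v e : ℕ) (g : ℕ → ℝ) :
    ∑ i ∈ range (v + e + 1), (if i ≤ v then g i else 0) = ∑ i ∈ range (v + 1), g i := by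
  rw [← sum_filter]
  congr 1
  ext i
  simp only [mem_filter, mem_range]
  omega

theorem sum_ite_ge (v e : ℕ) (g : ℕ → ℝ) :
    ∑ i ∈ range (v + e + 1), (if e ≤ i then g i else 0) = ∑ i ∈ range (v + 1), g (e + i) := by
  rw [← sum_filter]
  have : (range (v + e + 1)).filter (fun i => e ≤ i) = Ico e (v + e + 1) := by
    ext i
    simp only [mem_filter, mem_range, mem_Ico]
    omega
  rw [this, sum_Ico_eq_sum_range]
  congr 2
  omega

theorem PF_hh (f : ℤ → ℝ) (hf : PF f) (v : ℕ) : PF (hh f v) := by
  intro a b c d hab hac hsum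
  obtain ⟨e, he⟩ : ∃ e : ℕ, (e : ℤ) = b - a := ⟨(b - a).toNat, by
    rw [Int.toNat_of_nonneg (by omega)]⟩
  have hbd : b ≤ d := by omega
  set α : ℕ → ℝ := fun i => if i ≤ v then 1 else 0 with hα
  set β : ℕ → ℝ := fun i => if e ≤ i then 1 else 0 with hβ
  set W := range (v + e + 1) with hW
  have hb : hh f v b = ∑ i ∈ W, α i * f (b - i) := by
    unfold hh
    rw [← sum_ite_le v e]
    refine sum_congr rfl fun i _ => ?_
    simp only [hα]
    split_ifs <;> simp
  have hd : hh f v d = ∑ i ∈ W, α i * f (d - i) := by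
    unfold hh
    rw [← sum_ite_le v e]
    refine sum_congr rfl fun i _ => ?_
    simp only [hα]
    split_ifs <;> simp
  have ha : hh f v a = ∑ i ∈ W, β i * f (b - i) := by
    unfold hh
    have : ∀ i : ℕ, f (a - i) = (fun j : ℕ => f (b - j)) (e + i) := by
      intro i
      simp only
      congr 1
      push_cast
      omega
    refine (sum_congr rfl fun i _ => this i).trans
      ((sum_ite_ge v e (fun j : ℕ => f (b - j))).symm.trans ?_)
    refine sum_congr rfl fun i _ => ?_
    simp only [hβ]
    split_ifs <;> simp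
  have hc : hh f v c = ∑ i ∈ W, β i * f (d - i) := by
    unfold hh
    have : ∀ i : ℕ, f (c - i) = (fun j : ℕ => f (d - j)) (e + i) := by
      intro i
      simp only
      congr 1
      push_cast
      omega
    refine (sum_congr rfl fun i _ => this i).trans
      ((sum_ite_ge v e (fun j : ℕ => f (d - j))).symm.trans ?_)
    refine sum_congr rfl fun i _ => ?_
    simp only [hβ]
    split_ifs <;> simp
  rw [ha, hb, hc, hd, sum_mul_sum, sum_mul_sum, ← sub_nonneg, ← sum_sub_distrib]
  simp only [← sum_sub_distrib]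
  set A : ℕ → ℕ → ℝ := fun i j => f (b - i) * f (d - j) with hA
  set J : ℕ → ℕ → ℝ := fun i j => α i * β j - β i * α j with hJ
  have e1 : ∑ i ∈ W, ∑ j ∈ W, (α i * f (b - i) * (β j * f (d - j)) - β i * f (b - i) * (α j * f (d - j)))
      = ∑ i ∈ W, ∑ j ∈ W, J i j * A i j := by
    refine sum_congr rfl fun i _ => sum_congr rfl fun j _ => ?_
    simp only [hJ, hA]
    ring
  rw [e1]
  have e2 : ∑ i ∈ W, ∑ j ∈ W, J i j * A i j = ∑ i ∈ W, ∑ j ∈ W, (- J i j) * A j i := by
    rw [sum_comm]
    refine sum_congr rfl fun i _ => sum_congr rfl fun j _ => ?_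
    simp only [hJ]
    ring
  have e3 : 2 * ∑ i ∈ W, ∑ j ∈ W, J i j * A i j = ∑ i ∈ W, ∑ j ∈ W, J i j * (A i j - A j i) := by
    rw [two_mul]
    nth_rw 2 [e2]
    rw [← sum_add_distrib]
    refine sum_congr rfl fun i _ => ?_
    rw [← sum_add_distrib]
    refine sum_congr rfl fun j _ => ?_
    ring
  have hterm : ∀ i j : ℕ, i ≤ j → j ∈ W → 0 ≤ J i j ∧ 0 ≤ A i j - A j i := by
    intro i j hij hj
    constructor
    · simp only [hJ, hα, hβ]
      by_cases h1 : j ≤ v
      · have h2 : i ≤ v := by omega
        by_cases h3 : e ≤ i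
        · have h4 : e ≤ j := by omega
          simp [h1, h2, h3, h4]
        · simp only [h1, h2, h3, if_true, if_false]
          split_ifs <;> norm_num
      · simp only [h1, if_false, mul_zero, sub_zero]
        split_ifs <;> norm_num
    · simp only [hA, sub_nonneg]
      have hij' : (i : ℤ) ≤ j := by exact_mod_cast hij
      have := hf (b - j) (b - i) (d - j) (d - i) (by omega) (by omega) (by omega)
      linarith
  have hsq : 0 ≤ ∑ i ∈ W, ∑ j ∈ W, J i j * (A i j - A j i) := by
    refine sum_nonneg fun i hi => sum_nonneg fun j hj => ?_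
    rcases le_total i j with hij | hij
    · obtain ⟨h1, h2⟩ := hterm i j hij hj
      exact mul_nonneg h1 h2
    · obtain ⟨h1, h2⟩ := hterm j i hij hi
      have e4 : J i j = - J j i := by simp only [hJ]; ring
      have e5 : A i j - A j i = - (A j i - A i j) := by ring
      rw [e4, e5, neg_mul_neg]
      exact mul_nonneg h1 h2
  linarith

/-- The level `t` of the box `[0, v]`. -/
def lvl {n : ℕ} (v : Fin n → ℕ) (t : ℤ) : Finset (Fin n → ℕ) :=
  (Fintype.piFinset fun l => range (v l + 1)).filter fun x => (∑ l, (x l : ℤ)) = t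

theorem mem_lvl {n : ℕ} {v : Fin n → ℕ} {t : ℤ} {x : Fin n → ℕ} :
    x ∈ lvl v t ↔ (∀ l, x l ≤ v l) ∧ (∑ l, (x l : ℤ)) = t := by
  simp only [lvl, mem_filter, Fintype.mem_piFinset, mem_range, Nat.lt_succ_iff]

/-- Rank numbers of a product of chains. -/
noncomputable def NN {n : ℕ} (v : Fin n → ℕ) (t : ℤ) : ℝ := ((lvl v t).card : ℝ)

theorem NN_nonneg {n : ℕ} (v : Fin n → ℕ) (t : ℤ) : 0 ≤ NN v t := Nat.cast_nonneg _

theorem NN_pos_iff {n : ℕ} (v : Fin n → ℕ) (t : ℤ) : 0 < NN v t ↔ (lvl v t).Nonempty := by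
  unfold NN
  rw [Nat.cast_pos, card_pos]

/-- Reveal the first coordinate. -/
theorem sum_lvl_succ {A : Type*} [AddCommMonoid A] {n : ℕ} (v : Fin (n + 1) → ℕ) (t : ℤ)
    (F : (Fin (n + 1) → ℕ) → A) :
    ∑ x ∈ lvl v t, F x = ∑ a ∈ range (v 0 + 1), ∑ z ∈ lvl (fun l => v l.succ) (t - a),
      F (Fin.cons a z) := by
  rw [sum_sigma']
  refine sum_bij' (fun x _ => ⟨x 0, fun l => x l.succ⟩)
    (fun p _ => Fin.cons p.1 p.2) ?_ ?_ ?_ ?_ ?_
  · intro x hx
    rw [mem_lvl] at hx
    simp only [mem_sigma, mem_range, mem_lvl]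
    refine ⟨Nat.lt_succ_of_le (hx.1 0), fun l => hx.1 _, ?_⟩
    rw [← hx.2, Fin.sum_univ_succ]
    ring
  · intro p hp
    simp only [mem_sigma, mem_range, mem_lvl] at hp
    rw [mem_lvl]
    refine ⟨?_, ?_⟩
    · intro l
      refine Fin.cases ?_ (fun l => ?_) l
      · simpa using Nat.lt_succ_iff.mp hp.1
      · simpa using hp.2.1 l
    · rw [Fin.sum_univ_succ]
      simp only [Fin.cons_zero, Fin.cons_succ]
      rw [hp.2.2]
      ring
  · intro x _
    funext l
    refine Fin.cases ?_ (fun l => ?_) l <;> simp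
  · intro p _
    rcases p with ⟨a, z⟩
    simp
  · intro x _
    congr 1
    funext l
    refine Fin.cases ?_ (fun l => ?_) l <;> simp

theorem NN_succ {n : ℕ} (v : Fin (n + 1) → ℕ) (t : ℤ) :
    NN v t = hh (NN fun l => v l.succ) (v 0) t := by
  unfold NN hh
  rw [card_eq_sum_ones, sum_lvl_succ]
  push_cast
  refine sum_congr rfl fun a _ => ?_
  simp

theorem NN_zero (v : Fin 0 → ℕ) (t : ℤ) : NN v t = if t = 0 then 1 else 0 := by
  unfold NN
  by_cases h : t = 0
  · subst h
    have : lvl v 0 = {fun _ => 0} := by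
      ext x
      simp only [mem_lvl, mem_singleton]
      constructor
      · intro _
        funext l
        exact l.elim0
      · intro _
        exact ⟨fun l => l.elim0, by simp⟩
    simp [this]
  · have : lvl v t = ∅ := by
      ext x
      simp only [mem_lvl, notMem_empty, iff_false]
      rintro ⟨_, h2⟩
      apply h
      rw [← h2]
      simp
    simp [this, h]

theorem PF_NN {n : ℕ} (v : Fin n → ℕ) : PF (NN v) := by
  induction n with
  | zero =>
    intro a b c d hab hac hsum
    simp only [NN_zero]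
    by_cases h1 : a = 0
    · by_cases h2 : d = 0
      · have hb : b = 0 := by omega
        have hc : c = 0 := by omega
        simp [h1, h2, hb, hc]
      · simp only [h2, if_false, mul_zero]
        split_ifs <;> norm_num
    · simp only [h1, if_false, zero_mul]
      split_ifs <;> norm_num
  | succ n ih =>
    have : NN v = hh (NN fun l => v l.succ) (v 0) := by
      funext t
      exact NN_succ v t
    rw [this]
    exact PF_hh _ (ih _) _

/-- Total capacity. -/
def totalZ {n : ℕ} (v : Fin n → ℕ) : ℤ := ∑ l, (v l : ℤ)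

/-- Complement symmetry. -/
theorem NN_symm {n : ℕ} (v : Fin n → ℕ) (t : ℤ) : NN v t = NN v (totalZ v - t) := by
  unfold NN
  congr 1
  refine card_bij' (fun x _ l => v l - x l) (fun x _ l => v l - x l) ?_ ?_ ?_ ?_
  · intro x hx
    rw [mem_lvl] at hx ⊢
    refine ⟨fun l => Nat.sub_le _ _, ?_⟩
    unfold totalZ
    rw [← hx.2, ← sum_sub_distrib]
    refine sum_congr rfl fun l _ => ?_
    rw [Nat.cast_sub (hx.1 l)]
  · intro x hx
    rw [mem_lvl] at hx ⊢
    refine ⟨fun l => Nat.sub_le _ _, ?_⟩
    have h2 := hx.2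
    unfold totalZ at h2
    have : ∑ l, ((v l - x l : ℕ) : ℤ) = ∑ l, (v l : ℤ) - ∑ l, (x l : ℤ) := by
      rw [← sum_sub_distrib]
      refine sum_congr rfl fun l _ => ?_
      rw [Nat.cast_sub (hx.1 l)]
    rw [this, h2]
    ring
  · intro x hx
    rw [mem_lvl] at hx
    funext l
    have := hx.1 l
    show v l - (v l - x l) = x l
    omega
  · intro x hx
    rw [mem_lvl] at hx
    funext l
    have := hx.1 l
    show v l - (v l - x l) = x l
    omega

/-- Unimodality around the centre, from symmetry and log-concavity. -/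
theorem NN_mono {n : ℕ} (v : Fin n → ℕ) (x y : ℤ)
    (h : |2 * x - totalZ v| ≤ |2 * y - totalZ v|) : NN v y ≤ NN v x := by
  set R := totalZ v with hR
  -- move both to the lower half
  obtain ⟨y', hy1, hy2, hy3⟩ : ∃ y' : ℤ, NN v y' = NN v y ∧ 2 * y' ≤ R ∧ |2 * y - R| = R - 2 * y' := by
    by_cases hy : 2 * y ≤ R
    · exact ⟨y, rfl, hy, by rw [abs_of_nonpos (by omega)]; ring⟩
    · refine ⟨R - y, (NN_symm v y).symm, by omega, ?_⟩
      rw [abs_of_nonneg (by omega)]
      ring
  obtain ⟨x', hx1, hx2, hx3⟩ : ∃ x' : ℤ, NN v x' = NN v x ∧ 2 * x' ≤ R ∧ |2 * x - R| = R - 2 * x' := by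
    by_cases hx : 2 * x ≤ R
    · exact ⟨x, rfl, hx, by rw [abs_of_nonpos (by omega)]; ring⟩
    · refine ⟨R - x, (NN_symm v x).symm, by omega, ?_⟩
      rw [abs_of_nonneg (by omega)]
      ring
  rw [hx3, hy3] at h
  have hle : y' ≤ x' := by omega
  have key := PF_NN v y' x' (R - x') (R - y') hle (by omega) (by ring)
  rw [← hy1, ← hx1]
  have s1 : NN v (R - y') = NN v y' := (NN_symm v y').symm
  have s2 : NN v (R - x') = NN v x' := (NN_symm v x').symm
  rw [s1, s2] at key
  have n1 := NN_nonneg v x'
  have n2 := NN_nonneg v y'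
  nlinarith

/-- Levels between `0` and the total capacity are non-empty. -/
theorem NN_pos {n : ℕ} (v : Fin n → ℕ) (t : ℤ) (h0 : 0 ≤ t) (h1 : t ≤ totalZ v) : 0 < NN v t := by
  induction n generalizing t with
  | zero =>
    have : t = 0 := by
      simp [totalZ] at h1
      omega
    rw [NN_zero]
    simp [this]
  | succ n ih =>
    rw [NN_succ]
    unfold hh
    have ht : totalZ v = (v 0 : ℤ) + totalZ (fun l => v l.succ) := by
      unfold totalZ
      rw [Fin.sum_univ_succ]
    set a := min (v 0) t.toNat with ha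
    have ha1 : a ≤ v 0 := min_le_left _ _
    have ha2 : (a : ℤ) ≤ t := by
      have : a ≤ t.toNat := min_le_right _ _
      have h3 : (t.toNat : ℤ) = t := Int.toNat_of_nonneg h0
      omega
    have ha3 : t - a ≤ totalZ (fun l => v l.succ) := by
      by_cases hc : v 0 ≤ t.toNat
      · have : a = v 0 := min_eq_left hc
        rw [this]
        omega
      · have : a = t.toNat := min_eq_right (by omega)
        have h3 : (t.toNat : ℤ) = t := Int.toNat_of_nonneg h0
        have h4 : 0 ≤ totalZ (fun l => v l.succ) := by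
          unfold totalZ
          exact sum_nonneg fun _ _ => by positivity
        rw [this, h3]
        omega
    have hpos := ih (fun l => v l.succ) (t - a) (by omega) ha3
    refine lt_of_lt_of_le hpos ?_
    exact single_le_sum (f := fun i : ℕ => NN (fun l => v l.succ) (t - i))
      (fun i _ => NN_nonneg _ _) (mem_range.mpr (by omega))

/-- A sum divided by the size, multiplied back: no conditions on emptiness. -/
theorem card_mul_avg (c S Z : ℝ) (h : c = 0 → S = 0) : c / Z * (S / c) = S / Z := by
  by_cases hc : c = 0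
  · rw [hc, h hc]; simp
  · field_simp

/-- The level shift: a level and the next one are coupled by adding one unit. -/
theorem level_shift {n : ℕ} (v : Fin n → ℕ) (t : ℤ) (φ ψ : (Fin n → ℕ) → ℝ)
    (h : ∀ z ∈ lvl v t, ∀ p, z p < v p → φ z - ψ (Function.update z p (z p + 1)) ≤ 1)
    (h0 : 0 < NN v t) (h1 : 0 < NN v (t + 1)) :
    (∑ z ∈ lvl v t, φ z) / NN v t - (∑ z ∈ lvl v (t + 1), ψ z) / NN v (t + 1) ≤ 1 := by
  induction n generalizing t with
  | zero =>
    rw [NN_zero] at h0 h1
    have e0 : t = 0 := by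
      by_contra hne
      simp [hne] at h0
    have e1 : t + 1 = 0 := by
      by_contra hne
      simp [hne] at h1
    omega
  | succ n ih =>
    set v' : Fin n → ℕ := fun l => v l.succ with hv'
    set m := v 0 + 1 with hm
    set X : ℕ → ℝ := fun a => NN v' (t - a) with hX
    set Y : ℕ → ℝ := fun a => if a < m then NN v' (t + 1 - a) else 0 with hY
    have hX0 : ∀ a, 0 ≤ X a := fun a => NN_nonneg _ _
    have hY0 : ∀ a, 0 ≤ Y a := by
      intro a
      simp only [hY]
      split_ifs
      · exact NN_nonneg _ _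
      · exact le_rfl
    have hSX : ∑ a ∈ range m, X a = NN v t := by
      rw [NN_succ]
      rfl
    have hSY : ∑ a ∈ range (m + 1), Y a = NN v (t + 1) := by
      rw [NN_succ, sum_range_succ]
      simp only [hY, lt_self_iff_false, if_false, add_zero]
      unfold hh
      refine sum_congr rfl fun a ha => ?_
      rw [if_pos (mem_range.mp ha)]
    have hSXp : 0 < ∑ a ∈ range m, X a := by rw [hSX]; exact h0
    have hSYp : 0 < ∑ a ∈ range (m + 1), Y a := by rw [hSY]; exact h1
    set P := nmP X m with hP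
    set Q := nmP Y (m + 1) with hQ
    set Φ : ℕ → ℝ := fun a => (∑ z ∈ lvl v' (t - a), φ (Fin.cons a z)) / NN v' (t - a) with hΦ
    set Ψ : ℕ → ℝ := fun a => (∑ z ∈ lvl v' (t + 1 - a), ψ (Fin.cons a z)) / NN v' (t + 1 - a) with hΨ
    have e1 : (∑ z ∈ lvl v t, φ z) / NN v t = ∑ a ∈ range m, P a * Φ a := by
      rw [sum_lvl_succ, ← hSX, sum_div]
      refine sum_congr rfl fun a _ => ?_
      simp only [hP, nmP, hΦ, hX]
      rw [card_mul_avg]
      intro hc
      have : lvl v' (t - a) = ∅ := by
        unfold NN at hc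
        simpa using hc
      rw [this]
      simp
    have e2 : (∑ z ∈ lvl v (t + 1), ψ z) / NN v (t + 1) = ∑ a ∈ range (m + 1), Q a * Ψ a := by
      rw [sum_lvl_succ, ← hSY, sum_range_succ (fun a => Q a * Ψ a)]
      have hlast : Q m = 0 := by
        simp [hQ, nmP, hY]
      rw [hlast, zero_mul, add_zero, sum_div]
      refine sum_congr rfl fun a ha => ?_
      have ha' := mem_range.mp ha
      simp only [hQ, nmP, hΨ, hY, if_pos ha']
      rw [card_mul_avg]
      intro hc
      have : lvl v' (t + 1 - a) = ∅ := by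
        unfold NN at hc
        simpa using hc
      rw [this]
      simp
    rw [e1, e2]
    refine transport_le_one P Q Φ Ψ m (sum_nmP X m hSXp) (sum_nmP Y (m + 1) hSYp) ?_ ?_ ?_ ?_
    · refine fun k hk => cc_nonneg_of X Y m hX0 hY0 hSXp hSYp ?_ k hk
      intro a b hab hb
      have ha' : a < m := by omega
      simp only [hY, hX, if_pos ha', if_pos hb]
      have hab' : (a : ℤ) ≤ b := by exact_mod_cast hab
      have := PF_NN v' (t - b) (t - a) (t + 1 - b) (t + 1 - a) (by omega) (by omega) (by ring)
      linarith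
    · refine fun k hk => cc_le_of X Y m hX0 hY0 hSXp hSYp ?_ k hk
      intro a b hab hb
      by_cases hb1 : b + 1 < m
      · have ha1 : a + 1 < m := by omega
        simp only [hY, hX, if_pos hb1, if_pos ha1]
        have e3 : t + 1 - ((b + 1 : ℕ) : ℤ) = t - b := by push_cast; ring
        have e4 : t + 1 - ((a + 1 : ℕ) : ℤ) = t - a := by push_cast; ring
        rw [e3, e4]
      · have : Y (b + 1) = 0 := by
          simp only [hY]
          rw [if_neg hb1]
        rw [this, mul_zero]
        exact mul_nonneg (hY0 _) (hX0 _)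
    · intro k hk hPk hQk
      have hXk : 0 < X k := (nmP_pos_iff X m hSXp k).mp hPk
      have hYk : 0 < Y k := (nmP_pos_iff Y (m + 1) hSYp k).mp hQk
      simp only [hY, if_pos hk] at hYk
      have e3 : t + 1 - (k : ℤ) = (t - k) + 1 := by ring
      simp only [hΦ, hΨ]
      rw [e3]
      rw [e3] at hYk
      refine ih v' (t - k) (fun z => φ (Fin.cons k z)) (fun z => ψ (Fin.cons k z)) ?_ hXk hYk
      intro z hz p hp
      have hx : (Fin.cons k z : Fin (n + 1) → ℕ) ∈ lvl v t := by
        rw [mem_lvl] at hz ⊢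
        refine ⟨?_, ?_⟩
        · intro l
          refine Fin.cases ?_ (fun l => ?_) l
          · simpa using Nat.lt_succ_iff.mp hk
          · simpa using hz.1 l
        · rw [Fin.sum_univ_succ]
          simp only [Fin.cons_zero, Fin.cons_succ]
          rw [hz.2]
          ring
      have := h _ hx p.succ (by simpa using hp)
      simp only [Fin.cons_succ] at this
      rwa [← Fin.cons_update] at this
    · intro k hk hPk hQk
      have hXk : 0 < X k := (nmP_pos_iff X m hSXp k).mp hPk
      have hYk : 0 < Y (k + 1) := (nmP_pos_iff Y (m + 1) hSYp (k + 1)).mp hQk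
      have hk1 : k + 1 < m := by
        by_contra hne
        simp only [hY, if_neg hne] at hYk
        exact lt_irrefl _ hYk
      have e3 : t + 1 - ((k + 1 : ℕ) : ℤ) = t - k := by push_cast; ring
      simp only [hΦ, hΨ]
      rw [e3]
      rw [← sub_div, ← sum_sub_distrib, div_le_one hXk]
      have hcard : X k = ∑ z ∈ lvl v' (t - k), (1 : ℝ) := by
        simp only [hX]
        unfold NN
        simp
      rw [hcard]
      refine sum_le_sum fun z hz => ?_
      have hx : (Fin.cons k z : Fin (n + 1) → ℕ) ∈ lvl v t := by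
        rw [mem_lvl] at hz ⊢
        refine ⟨?_, ?_⟩
        · intro l
          refine Fin.cases ?_ (fun l => ?_) l
          · simpa using Nat.lt_succ_iff.mp hk
          · simpa using hz.1 l
        · rw [Fin.sum_univ_succ]
          simp only [Fin.cons_zero, Fin.cons_succ]
          rw [hz.2]
          ring
      have := h _ hx 0 (by simp; omega)
      simp only [Fin.cons_zero] at this
      rwa [Fin.update_cons_zero] at this

end P328
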