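import Vale.Agent.Lib.P328.Contract

/-!
# P328: from the contraction of the averaging operators to a spectral bound
-/

namespace P328
open Finset

section power
variable {β : Type*} (X : Finset β) (w : β → ℝ)

/-- Weighted inner product. -/
noncomputable def ip (g h : β → ℝ) : ℝ := ∑ x ∈ X, w x * (g x * h x)

theorem ip_comm (g h : β → ℝ) : ip X w g h = ip X w h g := by
  unfold ip
  refine sum_congr rfl fun x _ => ?_
  ring

theorem ip_self_nonneg (hw : ∀ x ∈ X, 0 ≤ w x) (g : β → ℝ) : 0 ≤ ip X w g g :=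
  sum_nonneg fun x hx => mul_nonneg (hw x hx) (mul_self_nonneg _)

theorem ip_cs (hw : ∀ x ∈ X, 0 ≤ w x) (g h : β → ℝ) :
    (ip X w g h) ^ 2 ≤ ip X w g g * ip X w h h := by
  have key := sum_mul_sq_le_sq_mul_sq X (fun x => √(w x) * g x) (fun x => √(w x) * h x)
  have e1 : ∀ x ∈ X, √(w x) * g x * (√(w x) * h x) = w x * (g x * h x) := by
    intro x hx
    have := Real.mul_self_sqrt (hw x hx)
    calc √(w x) * g x * (√(w x) * h x) = (√(w x) * √(w x)) * (g x * h x) := by ring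
      _ = w x * (g x * h x) := by rw [this]
  have e2 : ∀ (k : β → ℝ), ∀ x ∈ X, (√(w x) * k x) ^ 2 = w x * (k x * k x) := by
    intro k x hx
    have := Real.mul_self_sqrt (hw x hx)
    calc (√(w x) * k x) ^ 2 = (√(w x) * √(w x)) * (k x * k x) := by ring
      _ = w x * (k x * k x) := by rw [this]
  rw [sum_congr rfl e1, sum_congr rfl (e2 g), sum_congr rfl (e2 h)] at key
  exact key

theorem limit_ratio (ρ κ C : ℝ) (hκ : 0 < κ) (h : ∀ k : ℕ, ρ ^ (2 ^ k) ≤ C * κ ^ (2 ^ k)) :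
    ρ ≤ κ := by
  by_contra hne
  push Not at hne
  have hq : 1 < ρ / κ := (one_lt_div hκ).mpr hne
  obtain ⟨n, hn⟩ := pow_unbounded_of_one_lt C hq
  have h1 := h n
  have h2 : (ρ / κ) ^ n ≤ (ρ / κ) ^ (2 ^ n) :=
    pow_le_pow_right₀ hq.le Nat.lt_two_pow_self.le
  have h3 : (ρ / κ) ^ (2 ^ n) ≤ C := by
    rw [div_pow, div_le_iff₀ (pow_pos hκ _)]
    exact h1
  linarith

theorem ip_iter (T : (β → ℝ) → (β → ℝ)) (hT : ∀ g h, ip X w g (T h) = ip X w (T g) h)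
    (g h : β → ℝ) (m n : ℕ) : ip X w (T^[m] g) (T^[n] h) = ip X w g (T^[m + n] h) := by
  induction m generalizing n with
  | zero => simp
  | succ m ih =>
    rw [Function.iterate_succ_apply', ← hT, ← Function.iterate_succ_apply' T n h, ih]
    congr 2
    omega

/-- The power method: a uniform decay of oscillations gives the spectral bound. -/
theorem power_method (hw : ∀ x ∈ X, 0 ≤ w x) (T : (β → ℝ) → (β → ℝ))
    (hT : ∀ g h, ip X w g (T h) = ip X w (T g) h) (g : β → ℝ)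
    (hg : ∑ x ∈ X, w x * g x = 0) (κ M : ℝ) (hκ : 0 < κ)
    (hosc : ∀ n : ℕ, ∀ x ∈ X, ∀ x' ∈ X, T^[n] g x - T^[n] g x' ≤ M * κ ^ n) :
    ip X w g (T g) ≤ κ * ip X w g g := by
  set E := ip X w g g with hE
  have hE0 : 0 ≤ E := ip_self_nonneg X w hw g
  by_contra hne
  push Not at hne
  rcases hE0.eq_or_lt with hE1 | hE1
  · have := ip_cs X w hw g (T g)
    rw [← hE, ← hE1, zero_mul] at this
    have h0 : ip X w g (T g) = 0 := by
      have h2 := sq_nonneg (ip X w g (T g))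
      exact pow_eq_zero_iff (two_ne_zero) |>.mp (le_antisymm this h2)
    rw [h0, ← hE1] at hne
    simp at hne
  · set ρ := ip X w g (T g) / E with hρ
    have hρκ : κ < ρ := by
      rw [hρ, lt_div_iff₀ hE1]
      exact hne
    have hρ0 : 0 < ρ := hκ.trans hρκ
    have low : ∀ k : ℕ, E * ρ ^ (2 ^ k) ≤ ip X w g (T^[2 ^ k] g) := by
      intro k
      induction k with
      | zero =>
        simp only [pow_zero, pow_one, Function.iterate_one]
        rw [hρ]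
        field_simp
        exact le_rfl
      | succ k ih =>
        have hcs := ip_cs X w hw g (T^[2 ^ k] g)
        rw [ip_iter X w T hT g g (2 ^ k) (2 ^ k), ← hE] at hcs
        have e : 2 ^ k + 2 ^ k = 2 ^ (k + 1) := by
          rw [pow_succ]
          ring
        rw [e] at hcs
        have hpos : 0 ≤ E * ρ ^ (2 ^ k) := by positivity
        have h2 : (E * ρ ^ (2 ^ k)) ^ 2 ≤ (ip X w g (T^[2 ^ k] g)) ^ 2 :=
          pow_le_pow_left₀ hpos ih 2
        have h3 : (E * ρ ^ (2 ^ k)) ^ 2 = E * (E * ρ ^ (2 ^ (k + 1))) := by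
          rw [← e, pow_add]
          ring
        rw [h3] at h2
        exact le_of_mul_le_mul_left (h2.trans hcs) hE1
    -- `X` is non-empty
    obtain ⟨x₀, hx₀⟩ : X.Nonempty := by
      by_contra hX
      rw [not_nonempty_iff_eq_empty] at hX
      rw [hE, hX] at hE1
      simp [ip] at hE1
    set C₁ := ∑ x ∈ X, w x * |g x| with hC₁
    have hC₁0 : 0 ≤ C₁ := sum_nonneg fun x hx => mul_nonneg (hw x hx) (abs_nonneg _)
    have high : ∀ n : ℕ, ip X w g (T^[n] g) ≤ C₁ * (M * κ ^ n) := by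
      intro n
      set h := T^[n] g with hh
      have e1 : ip X w g h = ∑ x ∈ X, w x * (g x * (h x - h x₀)) := by
        have : ∑ x ∈ X, w x * (g x * (h x - h x₀))
            = ip X w g h - (∑ x ∈ X, w x * g x) * h x₀ := by
          unfold ip
          rw [sum_mul, ← sum_sub_distrib]
          refine sum_congr rfl fun x _ => ?_
          ring
        rw [this, hg]
        ring
      rw [e1, hC₁, sum_mul]
      refine sum_le_sum fun x hx => ?_
      have hb : |h x - h x₀| ≤ M * κ ^ n :=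
        abs_le.mpr ⟨by have := hosc n x₀ hx₀ x hx; linarith, hosc n x hx x₀ hx₀⟩
      have h1 : g x * (h x - h x₀) ≤ |g x| * (M * κ ^ n) := by
        calc g x * (h x - h x₀) ≤ |g x * (h x - h x₀)| := le_abs_self _
          _ = |g x| * |h x - h x₀| := abs_mul _ _
          _ ≤ |g x| * (M * κ ^ n) := mul_le_mul_of_nonneg_left hb (abs_nonneg _)
      calc w x * (g x * (h x - h x₀)) ≤ w x * (|g x| * (M * κ ^ n)) :=
            mul_le_mul_of_nonneg_left h1 (hw x hx)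
        _ = w x * |g x| * (M * κ ^ n) := by ring
    have hfin : ρ ≤ κ := by
      refine limit_ratio ρ κ (C₁ * M / E) hκ fun k => ?_
      have h1 := (low k).trans (high (2 ^ k))
      rw [div_mul_eq_mul_div, le_div_iff₀ hE1]
      linarith
    linarith

end power

section bipartite
variable {n : ℕ} (c : Fin n → ℕ) (t₁ t₂ : ℤ)

/-- The double averaging operator. -/
noncomputable def TT (g : (Fin n → ℕ) → ℝ) : (Fin n → ℕ) → ℝ := KK c t₂ (KK c t₁ g)

theorem fiber_comm (x y : Fin n → ℕ) :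
    x ∈ lvl c t₁ ∧ y ∈ lvl (subv c x) t₂ ↔ x ∈ lvl (subv c y) t₁ ∧ y ∈ lvl c t₂ := by
  simp only [mem_lvl, subv]
  constructor
  · rintro ⟨⟨h1, h2⟩, ⟨h3, h4⟩⟩
    refine ⟨⟨fun l => ?_, h2⟩, ⟨fun l => ?_, h4⟩⟩
    · have := h1 l
      have := h3 l
      omega
    · have := h1 l
      have := h3 l
      omega
  · rintro ⟨⟨h1, h2⟩, ⟨h3, h4⟩⟩
    refine ⟨⟨fun l => ?_, h2⟩, ⟨fun l => ?_, h4⟩⟩
    · have := h1 l
      have := h3 l
      omega
    · have := h1 l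
      have := h3 l
      omega

theorem dbl_sum (φ : (Fin n → ℕ) → (Fin n → ℕ) → ℝ) :
    ∑ x ∈ lvl c t₁, ∑ y ∈ lvl (subv c x) t₂, φ x y
      = ∑ y ∈ lvl c t₂, ∑ x ∈ lvl (subv c y) t₁, φ x y :=
  sum_comm' (fiber_comm c t₁ t₂)

/-- Weights of the level sets. -/
noncomputable def ww (t : ℤ) (x : Fin n → ℕ) : ℝ := NN (subv c x) t

theorem form_right (g h : (Fin n → ℕ) → ℝ) :
    ip (lvl c t₁) (ww c t₂) g (KK c t₂ h)
      = ∑ x ∈ lvl c t₁, ∑ y ∈ lvl (subv c x) t₂, g x * h y := by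
  unfold ip KK ww
  refine sum_congr rfl fun x _ => ?_
  rw [← mul_sum, mul_left_comm, NN_mul_avg]

theorem form_left (g h : (Fin n → ℕ) → ℝ) :
    ∑ x ∈ lvl c t₁, ∑ y ∈ lvl (subv c x) t₂, g x * h y
      = ip (lvl c t₂) (ww c t₁) (KK c t₁ g) h := by
  rw [dbl_sum]
  unfold ip KK ww
  refine sum_congr rfl fun y _ => ?_
  rw [← sum_mul, ← mul_assoc, NN_mul_avg]

theorem TT_sym (g h : (Fin n → ℕ) → ℝ) :
    ip (lvl c t₁) (ww c t₂) g (TT c t₁ t₂ h) = ip (lvl c t₁) (ww c t₂) (TT c t₁ t₂ g) h := by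
  unfold TT
  rw [ip_comm _ _ (KK c t₂ (KK c t₁ g)) h, form_right, form_right, form_left, form_left,
    ip_comm]

theorem exists_lip (S : Finset (Fin n → ℕ)) (g : (Fin n → ℕ) → ℝ) : ∃ L : ℝ, 0 < L ∧ LipOn S g L := by
  refine ⟨1 + 2 * ∑ x ∈ S, |g x|, ?_, ?_⟩
  · have : 0 ≤ ∑ x ∈ S, |g x| := sum_nonneg fun _ _ => abs_nonneg _
    linarith
  · intro x hx y hy _
    have h1 : |g x| ≤ ∑ x ∈ S, |g x| :=
      single_le_sum (f := fun x => |g x|) (fun _ _ => abs_nonneg _) hx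
    have h2 : |g y| ≤ ∑ x ∈ S, |g x| :=
      single_le_sum (f := fun x => |g x|) (fun _ _ => abs_nonneg _) hy
    have h3 := le_abs_self (g x)
    have h4 := neg_abs_le (g y)
    linarith

theorem iter_lip (h₁ : 0 ≤ t₁) (h₂ : 0 ≤ t₂) (ht₁ : 2 * t₂ ≤ totalZ c - t₁)
    (ht₂ : 2 * t₁ ≤ totalZ c - t₂) (g : (Fin n → ℕ) → ℝ) (L : ℝ) (hL : 0 < L)
    (hg : LipOn (lvl c t₁) g L) (m : ℕ) :
    LipOn (lvl c t₁) ((TT c t₁ t₂)^[m] g) (((253 / 256 : ℝ) ^ 2) ^ m * L) := by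
  induction m with
  | zero => simpa using hg
  | succ m ih =>
    rw [Function.iterate_succ_apply']
    have hpos : 0 < ((253 / 256 : ℝ) ^ 2) ^ m * L := by positivity
    have h3 := K_contract c t₂ t₁ h₁ ht₂ _ _ hpos ih
    have h4 := K_contract c t₁ t₂ h₂ ht₁ _ _ (by positivity) h3
    have e : (253 / 256 : ℝ) * ((253 / 256 : ℝ) * (((253 / 256 : ℝ) ^ 2) ^ m * L))
        = ((253 / 256 : ℝ) ^ 2) ^ (m + 1) * L := by
      rw [pow_succ]
      ring
    rw [← e]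
    exact h4

theorem spectral_bound (h₁ : 0 ≤ t₁) (h₂ : 0 ≤ t₂) (ht₁ : 2 * t₂ ≤ totalZ c - t₁)
    (ht₂ : 2 * t₁ ≤ totalZ c - t₂) (g : (Fin n → ℕ) → ℝ)
    (hg : ∑ x ∈ lvl c t₁, ww c t₂ x * g x = 0) :
    ip (lvl c t₁) (ww c t₂) g (TT c t₁ t₂ g)
      ≤ (253 / 256 : ℝ) ^ 2 * ip (lvl c t₁) (ww c t₂) g g := by
  obtain ⟨L, hL, hgL⟩ := exists_lip (lvl c t₁) g
  refine power_method (lvl c t₁) (ww c t₂) (fun _ _ => NN_nonneg _ _) (TT c t₁ t₂) (TT_sym c t₁ t₂)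
    g hg ((253 / 256 : ℝ) ^ 2) (((∑ l, c l : ℕ) : ℝ) * L) (by positivity) ?_
  intro m x hx x' hx'
  have h := osc_le c t₁ _ _ (by positivity) (iter_lip c t₁ t₂ h₁ h₂ ht₁ ht₂ g L hL hgL m) x x' hx hx'
  refine h.trans (le_of_eq ?_)
  ring

/-- The maximal correlation of the two rows is at most `253 / 256`. -/
theorem corr_bound (h₁ : 0 ≤ t₁) (h₂ : 0 ≤ t₂) (ht₁ : 2 * t₂ ≤ totalZ c - t₁)
    (ht₂ : 2 * t₁ ≤ totalZ c - t₂) (g h : (Fin n → ℕ) → ℝ)
    (hg : ∑ x ∈ lvl c t₁, ww c t₂ x * g x = 0) :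
    (∑ x ∈ lvl c t₁, ∑ y ∈ lvl (subv c x) t₂, g x * h y) ^ 2
      ≤ (253 / 256 : ℝ) ^ 2 * ((∑ x ∈ lvl c t₁, ∑ y ∈ lvl (subv c x) t₂, g x * g x)
        * (∑ x ∈ lvl c t₁, ∑ y ∈ lvl (subv c x) t₂, h y * h y)) := by
  have hw2 : ∀ y ∈ lvl c t₂, 0 ≤ ww c t₁ y := fun _ _ => NN_nonneg _ _
  have e1 : ∑ x ∈ lvl c t₁, ∑ y ∈ lvl (subv c x) t₂, g x * g x = ip (lvl c t₁) (ww c t₂) g g := by
    unfold ip ww
    refine sum_congr rfl fun x _ => ?_
    rw [NN_eq_sum, sum_const, sum_const]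
    simp
  have e2 : ∑ x ∈ lvl c t₁, ∑ y ∈ lvl (subv c x) t₂, h y * h y = ip (lvl c t₂) (ww c t₁) h h := by
    rw [dbl_sum]
    unfold ip ww
    refine sum_congr rfl fun y _ => ?_
    rw [NN_eq_sum, sum_const, sum_const]
    simp
  have e3 : ip (lvl c t₁) (ww c t₂) g (TT c t₁ t₂ g)
      = ip (lvl c t₂) (ww c t₁) (KK c t₁ g) (KK c t₁ g) := by
    unfold TT
    rw [form_right, form_left]
  have hs := spectral_bound c t₁ t₂ h₁ h₂ ht₁ ht₂ g hg
  rw [e3] at hs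
  have hcs := ip_cs (lvl c t₂) (ww c t₁) hw2 (KK c t₁ g) h
  rw [e1, e2, form_left]
  have hh := ip_self_nonneg (lvl c t₂) (ww c t₁) hw2 h
  calc _ ≤ _ := hcs
    _ ≤ _ := mul_le_mul_of_nonneg_right hs hh
    _ = _ := by ring

end bipartite

end P328
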