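import Vale.Agent.Lib.P328.Spectral

/-!
# P328: contingency tables with three rows
-/

namespace P328
open Finset

/-- Contingency tables with three rows, row sums `r` and column sums `c`. -/
def tables3 {n : ℕ} (r : Fin 3 → ℕ) (c : Fin n → ℕ) : Finset (Fin 3 → Fin n → ℕ) :=
  (Fintype.piFinset fun _ : Fin 3 => Fintype.piFinset fun j : Fin n => range (c j + 1)).filter
    fun T => (∀ i, ∑ j, T i j = r i) ∧ ∀ j, ∑ i, T i j = c j

/-- The heat-bath update: average of `f` over all tables having the same row `a` as `T`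
(the two other rows are resampled). -/
noncomputable def rowAvg {n : ℕ} (r : Fin 3 → ℕ) (c : Fin n → ℕ) (a : Fin 3)
    (f : (Fin 3 → Fin n → ℕ) → ℝ) (T : Fin 3 → Fin n → ℕ) : ℝ :=
  (∑ T' ∈ (tables3 r c).filter (fun T' => T' a = T a), f T')
    / (((tables3 r c).filter (fun T' => T' a = T a)).card : ℝ)

theorem mem_tables3 {n : ℕ} {r : Fin 3 → ℕ} {c : Fin n → ℕ} {T : Fin 3 → Fin n → ℕ} :
    T ∈ tables3 r c ↔ (∀ i, ∑ j, T i j = r i) ∧ ∀ j, ∑ i, T i j = c j := by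
  unfold tables3
  simp only [mem_filter, Fintype.mem_piFinset, mem_range]
  constructor
  · exact fun h => h.2
  · intro h
    refine ⟨fun i j => ?_, h⟩
    have : T i j ≤ ∑ i, T i j := single_le_sum (f := fun i => T i j) (fun _ _ => Nat.zero_le _) (mem_univ i)
    rw [h.2 j] at this
    omega

theorem sum_three_distinct {A : Type*} [AddCommMonoid A] (a₁ a₂ a₃ : Fin 3) (h12 : a₁ ≠ a₂)
    (h13 : a₁ ≠ a₃) (h23 : a₂ ≠ a₃) (φ : Fin 3 → A) : ∑ i, φ i = φ a₁ + φ a₂ + φ a₃ := by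
  have hu : ∀ a₁ a₂ a₃ : Fin 3, a₁ ≠ a₂ → a₁ ≠ a₃ → a₂ ≠ a₃ →
      (univ : Finset (Fin 3)) = {a₁, a₂, a₃} := by decide
  rw [hu a₁ a₂ a₃ h12 h13 h23, sum_insert (by simp [h12, h13]), sum_insert (by simp [h23]),
    sum_singleton, add_assoc]

theorem third_eq (a₁ a₂ a₃ i : Fin 3) (h1 : a₁ ≠ a₂) (h2 : a₁ ≠ a₃) (h3 : a₂ ≠ a₃) (h4 : i ≠ a₁)
    (h5 : i ≠ a₂) : i = a₃ := by
  have := a₁.2
  have := a₂.2
  have := a₃.2
  have := i.2
  simp only [ne_eq, Fin.ext_iff] at h1 h2 h3 h4 h5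
  apply Fin.ext
  omega

/-- The table with rows `x` and `y` at the places `a₁`, `a₂`. -/
def mkT {n : ℕ} (a₁ a₂ : Fin 3) (c x y : Fin n → ℕ) : Fin 3 → Fin n → ℕ :=
  fun i j => if i = a₁ then x j else if i = a₂ then y j else c j - x j - y j

section three
variable {n : ℕ} {r : Fin 3 → ℕ} {c : Fin n → ℕ} {a₁ a₂ a₃ : Fin 3}

theorem sum_tables (h12 : a₁ ≠ a₂) (h13 : a₁ ≠ a₃) (h23 : a₂ ≠ a₃)
    (hsum : ∑ l, c l = r a₁ + r a₂ + r a₃) (φ : (Fin n → ℕ) → (Fin n → ℕ) → ℝ) :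
    ∑ T ∈ tables3 r c, φ (T a₁) (T a₂)
      = ∑ x ∈ lvl c (r a₁ : ℤ), ∑ y ∈ lvl (subv c x) (r a₂ : ℤ), φ x y := by
  rw [sum_sigma']
  refine sum_bij' (fun T _ => ⟨T a₁, T a₂⟩) (fun p _ => mkT a₁ a₂ c p.1 p.2) ?_ ?_ ?_ ?_ ?_
  · intro T hT
    obtain ⟨hrow, hcol⟩ := mem_tables3.mp hT
    have hc : ∀ j, T a₁ j + T a₂ j + T a₃ j = c j := fun j => by
      rw [← hcol j, sum_three_distinct a₁ a₂ a₃ h12 h13 h23 (fun i => T i j)]
    simp only [mem_sigma, mem_lvl, subv]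
    refine ⟨⟨fun l => ?_, ?_⟩, ⟨fun l => ?_, ?_⟩⟩
    · have := hc l
      omega
    · rw [← hrow a₁]
      push_cast
      rfl
    · have := hc l
      omega
    · rw [← hrow a₂]
      push_cast
      rfl
  · intro p hp
    obtain ⟨x, y⟩ := p
    simp only [mem_sigma, mem_lvl, subv] at hp
    obtain ⟨⟨hx1, hx2⟩, ⟨hy1, hy2⟩⟩ := hp
    have hx3 : ∑ l, x l = r a₁ := by exact_mod_cast hx2
    have hy3 : ∑ l, y l = r a₂ := by exact_mod_cast hy2
    have hrest : ∑ j, (c j - x j - y j) = r a₃ := by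
      have : ∑ j, ((c j - x j - y j) + x j + y j) = ∑ j, c j := sum_congr rfl fun j _ => by
        have := hx1 j
        have := hy1 j
        omega
      rw [sum_add_distrib, sum_add_distrib, hx3, hy3, hsum] at this
      omega
    rw [mem_tables3]
    refine ⟨fun i => ?_, fun j => ?_⟩
    · by_cases hi1 : i = a₁
      · subst hi1
        simp [mkT, hx3]
      · by_cases hi2 : i = a₂
        · subst hi2
          simp [mkT, hi1, hy3]
        · have := third_eq a₁ a₂ a₃ i h12 h13 h23 hi1 hi2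
          subst this
          simp [mkT, hi1, hi2, hrest]
    · rw [sum_three_distinct a₁ a₂ a₃ h12 h13 h23]
      simp only [mkT, if_true, if_neg h12.symm, if_neg h13.symm, if_neg h23.symm]
      have := hx1 j
      have := hy1 j
      omega
  · intro T hT
    obtain ⟨_, hcol⟩ := mem_tables3.mp hT
    have hc : ∀ j, T a₁ j + T a₂ j + T a₃ j = c j := fun j => by
      rw [← hcol j, sum_three_distinct a₁ a₂ a₃ h12 h13 h23 (fun i => T i j)]
    funext i j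
    simp only [mkT]
    by_cases hi1 : i = a₁
    · subst hi1
      simp
    · by_cases hi2 : i = a₂
      · subst hi2
        simp [hi1]
      · have := third_eq a₁ a₂ a₃ i h12 h13 h23 hi1 hi2
        subst this
        simp only [if_neg hi1, if_neg hi2]
        have := hc j
        omega
  · intro p _
    obtain ⟨x, y⟩ := p
    have e1 : mkT a₁ a₂ c x y a₁ = x := by
      funext j
      simp [mkT]
    have e2 : mkT a₁ a₂ c x y a₂ = y := by
      funext j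
      simp [mkT, h12.symm]
    simp only [e1, e2]
  · intro T hT
    rfl

/-- Correlation bound on the tables. -/
theorem rho_tables (h12 : a₁ ≠ a₂) (h13 : a₁ ≠ a₃) (h23 : a₂ ≠ a₃)
    (hsum : ∑ l, c l = r a₁ + r a₂ + r a₃) (h1le : r a₁ ≤ r a₃) (h2le : r a₂ ≤ r a₃)
    (G₁ G₂ : (Fin n → ℕ) → ℝ) (h0 : ∑ T ∈ tables3 r c, G₁ (T a₁) = 0) :
    (∑ T ∈ tables3 r c, G₁ (T a₁) * G₂ (T a₂)) ^ 2
      ≤ (253 / 256 : ℝ) ^ 2 * ((∑ T ∈ tables3 r c, G₁ (T a₁) * G₁ (T a₁))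
        * (∑ T ∈ tables3 r c, G₂ (T a₂) * G₂ (T a₂))) := by
  have hZ : totalZ c = (r a₁ : ℤ) + r a₂ + r a₃ := by
    unfold totalZ
    have : ((∑ l, c l : ℕ) : ℤ) = ((r a₁ + r a₂ + r a₃ : ℕ) : ℤ) := by rw [hsum]
    push_cast at this
    exact this
  have e1 := sum_tables h12 h13 h23 hsum (fun x y => G₁ x * G₂ y)
  have e2 := sum_tables h12 h13 h23 hsum (fun x _ => G₁ x * G₁ x)
  have e3 := sum_tables h12 h13 h23 hsum (fun _ y => G₂ y * G₂ y)
  have e4 := sum_tables h12 h13 h23 hsum (fun x _ => G₁ x)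
  rw [e1, e2, e3]
  refine corr_bound c (r a₁ : ℤ) (r a₂ : ℤ) (by positivity) (by positivity) (by omega) (by omega)
    G₁ G₂ ?_
  rw [e4] at h0
  rw [← h0]
  refine sum_congr rfl fun x _ => ?_
  unfold ww
  rw [NN_eq_sum, sum_const, sum_const]
  simp

end three

/-- Averaging over a fibre is an orthogonal projection. -/
theorem proj_lemma {τ κ : Type*} [DecidableEq κ] (Ω : Finset τ) (k : τ → κ) (f : τ → ℝ)
    (h : κ → ℝ) :
    ∑ T ∈ Ω, h (k T) * f T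
      = ∑ T ∈ Ω, h (k T) * ((∑ T' ∈ Ω.filter (fun T' => k T' = k T), f T')
          / ((Ω.filter (fun T' => k T' = k T)).card : ℝ)) := by
  have hm : ∀ T ∈ Ω, k T ∈ Ω.image k := fun T hT => mem_image_of_mem k hT
  rw [← sum_fiberwise_of_maps_to hm, ← sum_fiberwise_of_maps_to hm
    (fun T => h (k T) * ((∑ T' ∈ Ω.filter (fun T' => k T' = k T), f T')
      / ((Ω.filter (fun T' => k T' = k T)).card : ℝ)))]
  refine sum_congr rfl fun b hb => ?_
  obtain ⟨T₀, hT₀, rfl⟩ := mem_image.mp hb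
  have hne : ((Ω.filter (fun T' => k T' = k T₀)).card : ℝ) ≠ 0 := by
    have : 0 < (Ω.filter (fun T' => k T' = k T₀)).card :=
      card_pos.mpr ⟨T₀, mem_filter.mpr ⟨hT₀, rfl⟩⟩
    positivity
  have e1 : ∑ T ∈ Ω.filter (fun T' => k T' = k T₀), h (k T) * f T
      = h (k T₀) * ∑ T ∈ Ω.filter (fun T' => k T' = k T₀), f T := by
    rw [mul_sum]
    refine sum_congr rfl fun T hT => ?_
    rw [(mem_filter.mp hT).2]
  have e2 : ∑ T ∈ Ω.filter (fun T' => k T' = k T₀), h (k T) *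
        ((∑ T' ∈ Ω.filter (fun T' => k T' = k T), f T')
          / ((Ω.filter (fun T' => k T' = k T)).card : ℝ))
      = ∑ _T ∈ Ω.filter (fun T' => k T' = k T₀), h (k T₀) *
        ((∑ T' ∈ Ω.filter (fun T' => k T' = k T₀), f T')
          / ((Ω.filter (fun T' => k T' = k T₀)).card : ℝ)) := by
    refine sum_congr rfl fun T hT => ?_
    rw [(mem_filter.mp hT).2]
  rw [e1, e2, sum_const, nsmul_eq_mul]
  field_simp

theorem final_arith (E A₁ A₂ A₃ C κ : ℝ) (hκ0 : 0 ≤ κ) (hE : 0 ≤ E) (hA₁ : 0 ≤ A₁) (hA₂ : 0 ≤ A₂)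
    (hA₃ : 0 ≤ A₃)
    (h3 : A₃ ^ 2 ≤ A₃ * E) (h12 : (A₁ + A₂) ^ 2 ≤ (A₁ + A₂ + 2 * C) * E)
    (hrho : C ^ 2 ≤ κ ^ 2 * (A₁ * A₂)) : (1 - κ) * E ≤ 3 * E - A₁ - A₂ - A₃ := by
  have h3' : A₃ ≤ E := by
    rcases hA₃.eq_or_lt with h | h
    · rw [← h]
      exact hE
    · nlinarith
  have hC : C ≤ κ * (A₁ + A₂) / 2 := by
    have h1 : C ^ 2 ≤ (κ * (A₁ + A₂) / 2) ^ 2 := by
      have : κ ^ 2 * (A₁ * A₂) ≤ (κ * (A₁ + A₂) / 2) ^ 2 := by
        nlinarith [mul_nonneg (sq_nonneg κ) (sq_nonneg (A₁ - A₂))]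
      linarith
    exact le_of_abs_le (abs_le_of_sq_le_sq h1 (by positivity))
  have h12' : A₁ + A₂ ≤ (1 + κ) * E := by
    rcases (add_nonneg hA₁ hA₂).eq_or_lt with h | h
    · rw [← h]
      positivity
    · have : (A₁ + A₂) ^ 2 ≤ (A₁ + A₂) * ((1 + κ) * E) := by
        have h5 : (A₁ + A₂ + 2 * C) * E ≤ (A₁ + A₂ + κ * (A₁ + A₂)) * E :=
          mul_le_mul_of_nonneg_right (by linarith) hE
        calc (A₁ + A₂) ^ 2 ≤ (A₁ + A₂ + 2 * C) * E := h12
          _ ≤ (A₁ + A₂ + κ * (A₁ + A₂)) * E := h5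
          _ = (A₁ + A₂) * ((1 + κ) * E) := by ring
      rw [sq] at this
      exact le_of_mul_le_mul_left this h
  nlinarith

section main
variable {n : ℕ} (r : Fin 3 → ℕ) (c : Fin n → ℕ)

/-- Dirichlet form of a single row update, as a norm difference. -/
theorem row_form (a : Fin 3) (f : (Fin 3 → Fin n → ℕ) → ℝ) :
    ∑ T ∈ tables3 r c, (f T - rowAvg r c a f T) * f T
      = ∑ T ∈ tables3 r c, f T * f T - ∑ T ∈ tables3 r c, rowAvg r c a f T * rowAvg r c a f T := by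
  have h := proj_lemma (tables3 r c) (fun T => T a) f
    (fun k => (∑ T' ∈ (tables3 r c).filter (fun T' => T' a = k), f T')
      / (((tables3 r c).filter (fun T' => T' a = k)).card : ℝ))
  have e : ∑ T ∈ tables3 r c, rowAvg r c a f T * f T
      = ∑ T ∈ tables3 r c, rowAvg r c a f T * rowAvg r c a f T := h
  rw [← e, ← sum_sub_distrib]
  refine sum_congr rfl fun T _ => ?_
  ring

theorem row_mean (a : Fin 3) (f : (Fin 3 → Fin n → ℕ) → ℝ) :
    ∑ T ∈ tables3 r c, rowAvg r c a f T = ∑ T ∈ tables3 r c, f T := by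
  have h := proj_lemma (tables3 r c) (fun T => T a) f (fun _ => 1)
  simp only [one_mul] at h
  exact h.symm

theorem row_inner (a : Fin 3) (f g : (Fin 3 → Fin n → ℕ) → ℝ) (hg : ∃ G : (Fin n → ℕ) → ℝ, ∀ T, g T = G (T a)) :
    ∑ T ∈ tables3 r c, g T * f T = ∑ T ∈ tables3 r c, g T * rowAvg r c a f T := by
  obtain ⟨G, hG⟩ := hg
  have h := proj_lemma (tables3 r c) (fun T => T a) f G
  simp only [hG]
  exact h

theorem gap_ordered {a₁ a₂ a₃ : Fin 3} (h12 : a₁ ≠ a₂) (h13 : a₁ ≠ a₃) (h23 : a₂ ≠ a₃)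
    (hsum : ∑ l, c l = r a₁ + r a₂ + r a₃) (h1le : r a₁ ≤ r a₃) (h2le : r a₂ ≤ r a₃)
    (f : (Fin 3 → Fin n → ℕ) → ℝ) (hf : ∑ T ∈ tables3 r c, f T = 0) :
    (3 / 256 : ℝ) * ∑ T ∈ tables3 r c, f T ^ 2
      ≤ ∑ a, ∑ T ∈ tables3 r c, (f T - rowAvg r c a f T) * f T := by
  rw [sum_three_distinct a₁ a₂ a₃ h12 h13 h23, row_form, row_form, row_form]
  set E := ∑ T ∈ tables3 r c, f T * f T with hE
  set g₁ := rowAvg r c a₁ f with hg₁
  set g₂ := rowAvg r c a₂ f with hg₂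
  set g₃ := rowAvg r c a₃ f with hg₃
  set A₁ := ∑ T ∈ tables3 r c, g₁ T * g₁ T with hA₁
  set A₂ := ∑ T ∈ tables3 r c, g₂ T * g₂ T with hA₂
  set A₃ := ∑ T ∈ tables3 r c, g₃ T * g₃ T with hA₃
  set C := ∑ T ∈ tables3 r c, g₁ T * g₂ T with hC
  have hE0 : 0 ≤ E := sum_nonneg fun _ _ => mul_self_nonneg _
  have hA₁0 : 0 ≤ A₁ := sum_nonneg fun _ _ => mul_self_nonneg _
  have hA₂0 : 0 ≤ A₂ := sum_nonneg fun _ _ => mul_self_nonneg _
  have hA₃0 : 0 ≤ A₃ := sum_nonneg fun _ _ => mul_self_nonneg _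
  -- the rows as functions of the key
  have ex₁ : ∃ G : (Fin n → ℕ) → ℝ, ∀ T, g₁ T = G (T a₁) :=
    ⟨fun k => (∑ T' ∈ (tables3 r c).filter (fun T' => T' a₁ = k), f T')
      / (((tables3 r c).filter (fun T' => T' a₁ = k)).card : ℝ), fun _ => rfl⟩
  have ex₂ : ∃ G : (Fin n → ℕ) → ℝ, ∀ T, g₂ T = G (T a₂) :=
    ⟨fun k => (∑ T' ∈ (tables3 r c).filter (fun T' => T' a₂ = k), f T')
      / (((tables3 r c).filter (fun T' => T' a₂ = k)).card : ℝ), fun _ => rfl⟩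
  have ex₃ : ∃ G : (Fin n → ℕ) → ℝ, ∀ T, g₃ T = G (T a₃) :=
    ⟨fun k => (∑ T' ∈ (tables3 r c).filter (fun T' => T' a₃ = k), f T')
      / (((tables3 r c).filter (fun T' => T' a₃ = k)).card : ℝ), fun _ => rfl⟩
  have i₁ : ∑ T ∈ tables3 r c, g₁ T * f T = A₁ := row_inner r c a₁ f g₁ ex₁
  have i₂ : ∑ T ∈ tables3 r c, g₂ T * f T = A₂ := row_inner r c a₂ f g₂ ex₂
  have i₃ : ∑ T ∈ tables3 r c, g₃ T * f T = A₃ := row_inner r c a₃ f g₃ ex₃
  -- Cauchy-Schwarz in the space of tables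
  have h3 : A₃ ^ 2 ≤ A₃ * E := by
    have := sum_mul_sq_le_sq_mul_sq (tables3 r c) g₃ f
    rw [i₃] at this
    simp only [sq] at this ⊢
    exact this
  have h12' : (A₁ + A₂) ^ 2 ≤ (A₁ + A₂ + 2 * C) * E := by
    have := sum_mul_sq_le_sq_mul_sq (tables3 r c) (fun T => g₁ T + g₂ T) f
    have e1 : ∑ T ∈ tables3 r c, (g₁ T + g₂ T) * f T = A₁ + A₂ := by
      rw [← i₁, ← i₂, ← sum_add_distrib]
      refine sum_congr rfl fun T _ => ?_
      ring
    have e2 : ∑ T ∈ tables3 r c, (g₁ T + g₂ T) ^ 2 = A₁ + A₂ + 2 * C := by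
      rw [hA₁, hA₂, hC, mul_sum, ← sum_add_distrib, ← sum_add_distrib]
      refine sum_congr rfl fun T _ => ?_
      ring
    rw [e1, e2] at this
    simpa [sq] using this
  have hrho : C ^ 2 ≤ (253 / 256 : ℝ) ^ 2 * (A₁ * A₂) := by
    obtain ⟨G₁, hG₁⟩ := ex₁
    obtain ⟨G₂, hG₂⟩ := ex₂
    have hmean : ∑ T ∈ tables3 r c, G₁ (T a₁) = 0 := by
      rw [← hf, ← row_mean r c a₁ f]
      exact sum_congr rfl fun T _ => (hG₁ T).symm
    have key := rho_tables h12 h13 h23 hsum h1le h2le G₁ G₂ hmean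
    simp only [← hG₁, ← hG₂] at key
    exact key
  have hfin := final_arith E A₁ A₂ A₃ C (253 / 256) (by norm_num) hE0 hA₁0 hA₂0 hA₃0 h3 h12' hrho
  have eE : ∑ T ∈ tables3 r c, f T ^ 2 = E := sum_congr rfl fun T _ => sq _
  rw [eE]
  linarith

/-- The spectral gap of the three-row chain. -/
theorem three_row_gap (f : (Fin 3 → Fin n → ℕ) → ℝ) (hf : ∑ T ∈ tables3 r c, f T = 0) :
    (3 / 256 : ℝ) * ∑ T ∈ tables3 r c, f T ^ 2
      ≤ ∑ a, ∑ T ∈ tables3 r c, (f T - rowAvg r c a f T) * f T := by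
  by_cases hsum : ∑ l, c l = ∑ i, r i
  · -- order the rows
    have hordered : ∃ a₁ a₂ a₃ : Fin 3, a₁ ≠ a₂ ∧ a₁ ≠ a₃ ∧ a₂ ≠ a₃ ∧ r a₁ ≤ r a₃ ∧ r a₂ ≤ r a₃ := by
      rcases le_total (r 0) (r 1) with h01 | h01
      · rcases le_total (r 1) (r 2) with h12 | h12
        · exact ⟨0, 1, 2, by decide, by decide, by decide, by omega, h12⟩
        · exact ⟨0, 2, 1, by decide, by decide, by decide, h01, h12⟩
      · rcases le_total (r 0) (r 2) with h02 | h02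
        · exact ⟨1, 0, 2, by decide, by decide, by decide, by omega, h02⟩
        · exact ⟨1, 2, 0, by decide, by decide, by decide, h01, h02⟩
    obtain ⟨a₁, a₂, a₃, h12, h13, h23, h1, h2⟩ := hordered
    refine gap_ordered r c h12 h13 h23 ?_ h1 h2 f hf
    rw [hsum, sum_three_distinct a₁ a₂ a₃ h12 h13 h23]
  · have hempty : tables3 r c = ∅ := by
      rw [eq_empty_iff_forall_notMem]
      intro T hT
      obtain ⟨hrow, hcol⟩ := mem_tables3.mp hT
      apply hsum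
      calc ∑ l, c l = ∑ j, ∑ i, T i j := sum_congr rfl fun j _ => (hcol j).symm
        _ = ∑ i, ∑ j, T i j := sum_comm
        _ = ∑ i, r i := sum_congr rfl fun i _ => hrow i
    simp [hempty]

end main

end P328
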