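import Mathlib

/-!
# P328: one-dimensional monotone transport between laws of adjacent supports

`P` lives on `range n`, `Q` on `range (n + 1)`; `cc P Q k` is the difference of their distribution
functions at `k`.  When `0 ≤ cc ≤ P` the monotone coupling moves mass by `0` or `1`.
-/

namespace P328
open Finset

/-- Difference of the distribution functions at `k`. -/
noncomputable def cc (P Q : ℕ → ℝ) (k : ℕ) : ℝ := ∑ a ∈ range (k + 1), (P a - Q a)

theorem abel_id (P Q Φ Ψ : ℕ → ℝ) (n : ℕ) :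
    ∑ k ∈ range n, ((P k - cc P Q k) * (Φ k - Ψ k) + cc P Q k * (Φ k - Ψ (k + 1)))
      = ∑ k ∈ range n, P k * Φ k - ∑ k ∈ range n, Q k * Ψ k
        - (∑ a ∈ range n, (P a - Q a)) * Ψ n := by
  induction n with
  | zero => simp
  | succ n ih =>
    rw [sum_range_succ, ih, sum_range_succ (fun k => P k * Φ k),
      sum_range_succ (fun k => Q k * Ψ k), sum_range_succ (fun a => P a - Q a)]
    unfold cc
    rw [sum_range_succ (fun a => P a - Q a) n]
    ring

theorem cc_succ (P Q : ℕ → ℝ) (k : ℕ) : cc P Q (k + 1) = cc P Q k + (P (k + 1) - Q (k + 1)) := by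
  unfold cc
  rw [sum_range_succ]

/-- The basic transport inequality. -/
theorem transport_le (P Q Φ Ψ u : ℕ → ℝ) (n : ℕ)
    (hP : ∑ a ∈ range n, P a = 1) (hQ : ∑ a ∈ range (n + 1), Q a = 1)
    (hC0 : ∀ k < n, 0 ≤ cc P Q k) (hC1 : ∀ k < n, cc P Q k ≤ P k)
    (h1 : ∀ k < n, 0 < P k → 0 < Q k → Φ k - Ψ k ≤ u k)
    (h2 : ∀ k < n, 0 < P k → 0 < Q (k + 1) → Φ k - Ψ (k + 1) ≤ 1) :
    ∑ a ∈ range n, P a * Φ a - ∑ a ∈ range (n + 1), Q a * Ψ a
      ≤ ∑ k ∈ range n, ((P k - cc P Q k) * u k + cc P Q k) := by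
  have hlast : ∑ a ∈ range n, (P a - Q a) = Q n := by
    rw [sum_sub_distrib, hP]
    rw [sum_range_succ] at hQ
    linarith
  have hid := abel_id P Q Φ Ψ n
  rw [hlast] at hid
  have e : ∑ a ∈ range n, P a * Φ a - ∑ a ∈ range (n + 1), Q a * Ψ a =
      ∑ k ∈ range n, ((P k - cc P Q k) * (Φ k - Ψ k) + cc P Q k * (Φ k - Ψ (k + 1))) := by
    rw [hid, sum_range_succ (fun a => Q a * Ψ a)]
    ring
  rw [e]
  refine sum_le_sum fun k hk => ?_
  have hk' := mem_range.mp hk
  have c0 := hC0 k hk'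
  have c1 := hC1 k hk'
  refine add_le_add ?_ ?_
  · -- the diagonal part
    rcases (sub_nonneg.mpr c1).eq_or_lt with hd | hd
    · rw [← hd]; simp
    · have hPk : 0 < P k := by linarith
      have hQk : 0 < Q k := by
        cases k with
        | zero =>
          have : cc P Q 0 = P 0 - Q 0 := by simp [cc]
          rw [this] at hd
          linarith
        | succ k =>
          have := cc_succ P Q k
          have c0' := hC0 k (by omega)
          rw [this] at hd
          linarith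
      exact mul_le_mul_of_nonneg_left (h1 k hk' hPk hQk) hd.le
  · -- the moved part
    rcases c0.eq_or_lt with hc | hc
    · rw [← hc]; simp
    · have hPk : 0 < P k := by linarith
      have hQk : 0 < Q (k + 1) := by
        by_cases hkn : k + 1 < n
        · have := cc_succ P Q k
          have c1' := hC1 (k + 1) hkn
          rw [this] at c1'
          linarith
        · have hkn' : k + 1 = n := by omega
          have : cc P Q k = Q n := by
            unfold cc
            rw [hkn', hlast]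
          rw [hkn']
          linarith
      have := h2 k hk' hPk hQk
      calc cc P Q k * (Φ k - Ψ (k + 1)) ≤ cc P Q k * 1 :=
            mul_le_mul_of_nonneg_left this hc.le
        _ = cc P Q k := mul_one _

/-- With `u = 1` the bound is exactly `1`. -/
theorem transport_le_one (P Q Φ Ψ : ℕ → ℝ) (n : ℕ)
    (hP : ∑ a ∈ range n, P a = 1) (hQ : ∑ a ∈ range (n + 1), Q a = 1)
    (hC0 : ∀ k < n, 0 ≤ cc P Q k) (hC1 : ∀ k < n, cc P Q k ≤ P k)
    (h1 : ∀ k < n, 0 < P k → 0 < Q k → Φ k - Ψ k ≤ 1)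
    (h2 : ∀ k < n, 0 < P k → 0 < Q (k + 1) → Φ k - Ψ (k + 1) ≤ 1) :
    ∑ a ∈ range n, P a * Φ a - ∑ a ∈ range (n + 1), Q a * Ψ a ≤ 1 := by
  have := transport_le P Q Φ Ψ (fun _ => 1) n hP hQ hC0 hC1 h1 h2
  refine this.trans ?_
  have : ∑ k ∈ range n, ((P k - cc P Q k) * 1 + cc P Q k) = ∑ k ∈ range n, P k := by
    refine sum_congr rfl fun k _ => ?_
    ring
  rw [this, hP]

section validity
variable (X Y : ℕ → ℝ) (n : ℕ)

/-- Normalised sequences. -/
noncomputable def nmP (X : ℕ → ℝ) (n : ℕ) (a : ℕ) : ℝ := X a / ∑ b ∈ range n, X b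

theorem sum_nmP (hS : 0 < ∑ b ∈ range n, X b) : ∑ a ∈ range n, nmP X n a = 1 := by
  unfold nmP
  rw [← sum_div, div_self hS.ne']

theorem nmP_pos_iff (hS : 0 < ∑ b ∈ range n, X b) (a : ℕ) : 0 < nmP X n a ↔ 0 < X a := by
  unfold nmP
  constructor
  · intro h
    by_contra h'
    have : X a ≤ 0 := not_lt.mp h'
    have := div_nonpos_of_nonpos_of_nonneg this hS.le
    linarith
  · intro h
    exact div_pos h hS

theorem cc_nonneg_of (hX : ∀ a, 0 ≤ X a) (hY : ∀ a, 0 ≤ Y a)
    (hSX : 0 < ∑ b ∈ range n, X b) (hSY : 0 < ∑ b ∈ range (n + 1), Y b)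
    (ha : ∀ a b, a ≤ b → b < n → Y a * X b ≤ X a * Y b) (k : ℕ) (hk : k < n) :
    0 ≤ cc (nmP X n) (nmP Y (n + 1)) k := by
  unfold cc nmP
  rw [sum_sub_distrib, ← sum_div, ← sum_div]
  set SX := ∑ b ∈ range n, X b with hSXd
  set SY := ∑ b ∈ range (n + 1), Y b with hSYd
  set XS := ∑ a ∈ range (k + 1), X a with hXS
  set YS := ∑ a ∈ range (k + 1), Y a with hYS
  have e1 : SX = XS + ∑ b ∈ Ico (k + 1) n, X b := by
    rw [hSXd, hXS, range_eq_Ico, range_eq_Ico, sum_Ico_consecutive _ (by omega) (by omega)]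
  have e2 : SY = YS + ∑ b ∈ Ico (k + 1) (n + 1), Y b := by
    rw [hSYd, hYS, range_eq_Ico, range_eq_Ico, sum_Ico_consecutive _ (by omega) (by omega)]
  have e3 : ∑ b ∈ Ico (k + 1) n, Y b ≤ ∑ b ∈ Ico (k + 1) (n + 1), Y b := by
    rw [sum_Ico_succ_top (by omega)]
    have := hY n
    linarith
  have key : YS * ∑ b ∈ Ico (k + 1) n, X b ≤ XS * ∑ b ∈ Ico (k + 1) n, Y b := by
    rw [hXS, hYS, sum_mul_sum, sum_mul_sum]
    refine sum_le_sum fun a ha' => sum_le_sum fun b hb' => ?_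
    have h1 := mem_range.mp ha'
    have h2 := mem_Ico.mp hb'
    exact ha a b (by omega) h2.2
  have hXSn : 0 ≤ XS := sum_nonneg fun a _ => hX a
  have key2 : YS * ∑ b ∈ Ico (k + 1) n, X b ≤ XS * ∑ b ∈ Ico (k + 1) (n + 1), Y b :=
    key.trans (mul_le_mul_of_nonneg_left e3 hXSn)
  rw [sub_nonneg, div_le_div_iff₀ hSY hSX]
  rw [e1, e2]
  nlinarith [key2]

theorem cc_le_of (hX : ∀ a, 0 ≤ X a) (hY : ∀ a, 0 ≤ Y a)
    (hSX : 0 < ∑ b ∈ range n, X b) (hSY : 0 < ∑ b ∈ range (n + 1), Y b)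
    (hb : ∀ a b, a ≤ b → b < n → X a * Y (b + 1) ≤ Y (a + 1) * X b) (k : ℕ) (hk : k < n) :
    cc (nmP X n) (nmP Y (n + 1)) k ≤ nmP X n k := by
  have hstep : cc (nmP X n) (nmP Y (n + 1)) k - nmP X n k =
      ∑ a ∈ range k, nmP X n a - ∑ a ∈ range (k + 1), nmP Y (n + 1) a := by
    unfold cc
    rw [sum_sub_distrib, sum_range_succ (nmP X n)]
    ring
  have : ∑ a ∈ range k, nmP X n a ≤ ∑ a ∈ range (k + 1), nmP Y (n + 1) a := by
    unfold nmP
    rw [← sum_div, ← sum_div]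
    set SX := ∑ b ∈ range n, X b with hSXd
    set SY := ∑ b ∈ range (n + 1), Y b with hSYd
    set U := ∑ a ∈ range k, X a with hU
    set V := ∑ a ∈ range (k + 1), Y a with hV
    have e1 : SX = U + ∑ b ∈ Ico k n, X b := by
      rw [hSXd, hU, range_eq_Ico, range_eq_Ico, sum_Ico_consecutive _ (by omega) (by omega)]
    have e2 : SY = V + ∑ b ∈ Ico k n, Y (b + 1) := by
      rw [hSYd, hV, range_eq_Ico, range_eq_Ico,
        ← sum_Ico_consecutive _ (Nat.zero_le (k + 1)) (show k + 1 ≤ n + 1 by omega)]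
      congr 1
      rw [sum_Ico_add' (fun b => Y b) k n 1]
    have e3 : V = Y 0 + ∑ a ∈ range k, Y (a + 1) := by
      rw [hV, sum_range_succ']
      ring
    have key : U * ∑ b ∈ Ico k n, Y (b + 1) ≤ (∑ a ∈ range k, Y (a + 1)) * ∑ b ∈ Ico k n, X b := by
      rw [hU, sum_mul_sum, sum_mul_sum]
      refine sum_le_sum fun a ha' => sum_le_sum fun b hb' => ?_
      have h1 := mem_range.mp ha'
      have h2 := mem_Ico.mp hb'
      exact hb a b (by omega) h2.2
    have hXn : 0 ≤ ∑ b ∈ Ico k n, X b := sum_nonneg fun b _ => hX b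
    have key2 : U * ∑ b ∈ Ico k n, Y (b + 1) ≤ V * ∑ b ∈ Ico k n, X b := by
      refine key.trans (mul_le_mul_of_nonneg_right ?_ hXn)
      rw [e3]
      have := hY 0
      linarith
    rw [div_le_div_iff₀ hSX hSY, e1, e2]
    nlinarith [key2]
  linarith

end validity

end P328
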